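import Mathlib

/-!
The trivial extension of an algebra `U` by the cokernel bimodule of a matrix `η`.
-/

namespace Vale.Agent.P176

universe u

variable {k : Type u} [Field k] {U : Type u} [Ring U] [Algebra k U]
  {ρ : Type} [Fintype ρ] [DecidableEq ρ]

section Act

variable {M : Type*} [AddCommGroup M] [Module U M] {M' : Type*} [AddCommGroup M'] [Module U M']

/-- a matrix acting on a column of module elements -/
def act (N : Matrix ρ ρ U) (w : ρ → M) : ρ → M := fun a => ∑ b, N a b • w b

omit [DecidableEq ρ]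

theorem act_mul (N N' : Matrix ρ ρ U) (w : ρ → M) : act (N * N') w = act N (act N' w) := by
  funext a
  simp only [act, Matrix.mul_apply, Finset.smul_sum, Finset.sum_smul, mul_smul]
  rw [Finset.sum_comm]

theorem act_add (N : Matrix ρ ρ U) (w w' : ρ → M) : act N (w + w') = act N w + act N w' := by
  funext a; simp [act, Finset.sum_add_distrib]

theorem act_sub (N : Matrix ρ ρ U) (w w' : ρ → M) : act N (w - w') = act N w - act N w' := by
  funext a; simp [act, smul_sub, Finset.sum_sub_distrib]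

theorem act_zero (N : Matrix ρ ρ U) : act N (0 : ρ → M) = 0 := by
  funext a; simp [act]

theorem add_act (N N' : Matrix ρ ρ U) (w : ρ → M) : act (N + N') w = act N w + act N' w := by
  funext a; simp [act, add_smul, Finset.sum_add_distrib]

theorem zero_act (w : ρ → M) : act (0 : Matrix ρ ρ U) w = 0 := by
  funext a; simp [act]

theorem map_act (f : M →ₗ[U] M') (N : Matrix ρ ρ U) (w : ρ → M) :
    (fun c => f (act N w c)) = act N (fun c => f (w c)) := by
  funext a; simp [act]

theorem one_act [DecidableEq ρ] (w : ρ → M) : act (1 : Matrix ρ ρ U) w = w := by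
  funext a; simp [act, Matrix.one_apply]

theorem act_col {T : Type*} (N : Matrix ρ ρ U) (w : ρ → T → U) (t : T) :
    (fun c => act N w c t) = act N (fun c => w c t) := by
  funext a; simp [act]

theorem act_mul_right (N : Matrix ρ ρ U) (w : ρ → U) (u : U) :
    act N (fun c => w c * u) = fun c => act N w c * u := by
  funext a; simp [act, Finset.sum_mul, mul_assoc]

end Act

/-- a twisting homomorphism and a natural endomorphism -/
structure Dat (k : Type u) [Field k] (U : Type u) [Ring U] [Algebra k U] (ρ : Type) [Fintype ρ]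
    [DecidableEq ρ] where
  φ : U →ₐ[k] Matrix ρ ρ U
  η : Matrix ρ ρ U
  comm : ∀ u, η * φ u = φ u * η
  inj : ∀ y : ρ → U, act η y = 0 → y = 0

/-- interface of the trivial extension -/
structure Ext (D : Dat k U ρ) (R : Type u) [Ring R] [Algebra k R] where
  j : U →ₐ[k] R
  π : R →ₐ[k] U
  ν : (ρ → U) →ₗ[k] R
  πj : ∀ u, π (j u) = u
  πν : ∀ w, π (ν w) = 0
  dec : ∀ x, ∃ w, x = j (π x) + ν w
  ker : ∀ w, ν w = 0 ↔ ∃ y, w = act D.η y
  jν : ∀ u w, j u * ν w = ν (act (D.φ u) w)
  νj : ∀ u w, ν w * j u = ν (fun c => w c * u)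
  νν : ∀ w w', ν w * ν w' = 0

/-- left multiplication by a matrix as a right linear map -/
def actR (N : Matrix ρ ρ U) : (ρ → U) →ₗ[Uᵐᵒᵖ] (ρ → U) where
  toFun := act N
  map_add' := act_add N
  map_smul' u w := act_mul_right N w u.unop

namespace Dat

variable (D : Dat k U ρ)

/-- the cokernel bimodule -/
def N : Type u := (ρ → U) ⧸ LinearMap.range (actR D.η)

noncomputable instance : AddCommGroup D.N :=
  inferInstanceAs (AddCommGroup ((ρ → U) ⧸ LinearMap.range (actR D.η)))

noncomputable instance : Module Uᵐᵒᵖ D.N :=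
  inferInstanceAs (Module Uᵐᵒᵖ ((ρ → U) ⧸ LinearMap.range (actR D.η)))

noncomputable instance : Module k D.N :=
  inferInstanceAs (Module k ((ρ → U) ⧸ LinearMap.range (actR D.η)))

instance : IsScalarTower k Uᵐᵒᵖ D.N :=
  inferInstanceAs (IsScalarTower k Uᵐᵒᵖ ((ρ → U) ⧸ LinearMap.range (actR D.η)))

/-- the quotient map -/
noncomputable def cl : (ρ → U) →ₗ[Uᵐᵒᵖ] D.N := (LinearMap.range (actR D.η)).mkQ

theorem mk_surj : Function.Surjective D.cl := Submodule.mkQ_surjective _

theorem mk_eq_zero (w : ρ → U) : D.cl w = 0 ↔ ∃ y, w = act D.η y := by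
  refine (Submodule.Quotient.mk_eq_zero _).trans ?_
  exact ⟨fun ⟨y, hy⟩ => ⟨y, hy.symm⟩, fun ⟨y, hy⟩ => ⟨y, hy.symm⟩⟩

theorem mk_smul (c : k) (w : ρ → U) : D.cl (c • w) = c • D.cl w := rfl

/-- the left action -/
noncomputable def lact (u : U) : D.N →ₗ[Uᵐᵒᵖ] D.N :=
  Submodule.mapQ _ _ (actR (D.φ u)) (by
    rintro _ ⟨y, rfl⟩
    refine ⟨act (D.φ u) y, ?_⟩
    change act D.η (act (D.φ u) y) = act (D.φ u) (act D.η y)
    rw [← act_mul, ← act_mul, D.comm])

theorem lact_mk (u : U) (w : ρ → U) : D.lact u (D.cl w) = D.cl (act (D.φ u) w) := rfl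

/-- the left action as a ring homomorphism -/
noncomputable def lhom : U →+* Module.End Uᵐᵒᵖ D.N where
  toFun := D.lact
  map_one' := by
    refine LinearMap.ext fun x => ?_
    obtain ⟨w, rfl⟩ := D.mk_surj x
    rw [lact_mk, map_one, one_act]; rfl
  map_mul' u v := by
    refine LinearMap.ext fun x => ?_
    obtain ⟨w, rfl⟩ := D.mk_surj x
    rw [Module.End.mul_apply, lact_mk, lact_mk, lact_mk, map_mul, act_mul]
  map_zero' := by
    refine LinearMap.ext fun x => ?_
    obtain ⟨w, rfl⟩ := D.mk_surj x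
    rw [lact_mk, map_zero, zero_act, map_zero]; rfl
  map_add' u v := by
    refine LinearMap.ext fun x => ?_
    obtain ⟨w, rfl⟩ := D.mk_surj x
    rw [LinearMap.add_apply, lact_mk, lact_mk, lact_mk, map_add, add_act, map_add]

noncomputable instance : Module U D.N := Module.compHom D.N D.lhom

theorem smul_mk (u : U) (w : ρ → U) : u • D.cl w = D.cl (act (D.φ u) w) := rfl

instance : SMulCommClass U Uᵐᵒᵖ D.N where
  smul_comm u v x := (map_smul (D.lact u) v x)

instance : IsScalarTower k U D.N where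
  smul_assoc c u x := by
    obtain ⟨w, rfl⟩ := D.mk_surj x
    rw [smul_mk, smul_mk, ← mk_smul, map_smul]
    congr 1
    funext a
    simp [act, Finset.smul_sum]

/-- the trivial extension -/
abbrev R : Type u := TrivSqZeroExt U D.N

/-- the interface -/
noncomputable def ext : Ext D D.R where
  j := TrivSqZeroExt.inlAlgHom k U D.N
  π := TrivSqZeroExt.fstHom k U D.N
  ν :=
    { toFun := fun w => TrivSqZeroExt.inr (D.cl w)
      map_add' := fun w w' => by rw [map_add, TrivSqZeroExt.inr_add]
      map_smul' := fun c w => by rw [mk_smul, TrivSqZeroExt.inr_smul]; rfl }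
  πj u := rfl
  πν w := rfl
  dec x := by
    obtain ⟨w, hw⟩ := D.mk_surj x.snd
    refine ⟨w, ?_⟩
    change x = TrivSqZeroExt.inl x.fst + TrivSqZeroExt.inr (D.cl w)
    rw [hw, TrivSqZeroExt.inl_fst_add_inr_snd_eq]
  ker w := by
    rw [← D.mk_eq_zero]
    change (TrivSqZeroExt.inr (D.cl w) : D.R) = 0 ↔ _
    rw [← TrivSqZeroExt.inr_zero]
    exact TrivSqZeroExt.inr_injective.eq_iff
  jν u w := TrivSqZeroExt.inl_mul_inr u (D.cl w)
  νj u w := by
    refine (TrivSqZeroExt.inr_mul_inl u (D.cl w)).trans ?_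
    rw [← map_smul]; rfl
  νν w w' := TrivSqZeroExt.inr_mul_inr U (D.cl w) (D.cl w')

end Dat

end Vale.Agent.P176
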