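import Vale.Agent.P176.Win
import Vale.Agent.P176.Ext

/-!
From a levelwise exact free resolution over `U` to the short exact sequences over the window
algebra of the trivial extension.
-/

open CategoryTheory

namespace Vale.Agent.P176

universe u

variable {k : Type u} [Field k] {U : Type u} [Ring U] [Algebra k U]
  {ρ : Type} [Fintype ρ] [DecidableEq ρ] {I : Type} [Fintype I] [DecidableEq I]

section FamOps

variable {R : Type u} [Ring R] [Algebra k R] {W : Win k R I} {M : Type u} [AddCommGroup M]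
  [Module R M] {M' : Type u} [AddCommGroup M'] [Module R M']

/-- image family -/
def Fam.map (G : Fam W M) (f : M →ₗ[R] M') : Fam W M' where
  S a := (G.S a).map f.toAddMonoidHom
  smul_mem := by
    rintro a b r _ hr ⟨x, hx, rfl⟩
    exact ⟨r • x, G.smul_mem hr hx, map_smul f r x⟩

/-- kernel family -/
def Fam.ker (G : Fam W M) (f : M →ₗ[R] M') : Fam W M where
  S a := G.S a ⊓ f.toAddMonoidHom.ker
  smul_mem := by
    rintro a b r x hr ⟨hx, hx'⟩
    refine ⟨G.smul_mem hr hx, ?_⟩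
    have : f x = 0 := hx'
    change f (r • x) = 0
    rw [map_smul, this, smul_zero]

omit [Fintype I] [DecidableEq I]

theorem Fam.mem_map {G : Fam W M} {f : M →ₗ[R] M'} {a : I} {y : M'} :
    y ∈ (G.map f).S a ↔ ∃ x ∈ G.S a, f x = y := Iff.rfl

theorem Fam.mem_ker {G : Fam W M} {f : M →ₗ[R] M'} {a : I} {x : M} :
    x ∈ (G.ker f).S a ↔ x ∈ G.S a ∧ f x = 0 := Iff.rfl

theorem compat_lin (G : Fam W M) (G' : Fam W M') (f : M →ₗ[R] M')
    (h : ∀ a, ∀ x ∈ G.S a, f x ∈ G'.S a) : Compat G G' f :=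
  ⟨h, fun _ x _ y _ => map_add f x y, fun _ _ r _ x _ => map_smul f r x⟩

end FamOps

/-- level data -/
structure Lev (D : Dat k U ρ) (I : Type) where
  Uf : I → I → Submodule k U
  Vf : I → I → Submodule k (ρ → U)
  one_mem : ∀ a, (1 : U) ∈ Uf a a
  UU : ∀ {a b c : I} {x y : U}, x ∈ Uf a b → y ∈ Uf b c → x * y ∈ Uf a c
  UV : ∀ {a b c : I} {x : U} {w : ρ → U}, x ∈ Uf a b → w ∈ Vf b c → act (D.φ x) w ∈ Vf a c
  VU : ∀ {a b c : I} {w : ρ → U} {y : U}, w ∈ Vf a b → y ∈ Uf b c → (fun e => w e * y) ∈ Vf a c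
  finU : ∀ a b, FiniteDimensional k (Uf a b)
  finV : ∀ a b, FiniteDimensional k (Vf a b)

variable {D : Dat k U ρ} (Λ : Lev D I) {R : Type u} [Ring R] [Algebra k R] (E : Ext D R)

/-- the window of the trivial extension -/
def Lev.win : Win k R I where
  F a b := (Λ.Uf a b).map E.j.toLinearMap ⊔ (Λ.Vf a b).map E.ν
  one_mem a := Submodule.mem_sup_left ⟨1, Λ.one_mem a, map_one E.j⟩
  mul_mem := by
    intro a b c x y hx hy
    obtain ⟨_, ⟨u, hu, rfl⟩, _, ⟨w, hw, rfl⟩, rfl⟩ := Submodule.mem_sup.1 hx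
    obtain ⟨_, ⟨u', hu', rfl⟩, _, ⟨w', hw', rfl⟩, rfl⟩ := Submodule.mem_sup.1 hy
    simp only [AlgHom.toLinearMap_apply, add_mul, mul_add, E.νν, E.jν, E.νj, ← map_mul, add_zero]
    refine Submodule.add_mem _ (Submodule.add_mem _ ?_ ?_) ?_
    · exact Submodule.mem_sup_left ⟨_, Λ.UU hu hu', rfl⟩
    · exact Submodule.mem_sup_right ⟨_, Λ.VU hw hu', rfl⟩
    · exact Submodule.mem_sup_right ⟨_, Λ.UV hu hw', rfl⟩
  fin a b := by
    have := Λ.finU a b
    have := Λ.finV a b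
    infer_instance

omit [Fintype I] [DecidableEq I] in
theorem Lev.mem_win {a b : I} {x : R} :
    x ∈ (Λ.win E).F a b ↔ ∃ u ∈ Λ.Uf a b, ∃ w ∈ Λ.Vf a b, x = E.j u + E.ν w := by
  constructor
  · intro hx
    obtain ⟨_, ⟨u, hu, rfl⟩, _, ⟨w, hw, rfl⟩, rfl⟩ := Submodule.mem_sup.1 hx
    exact ⟨u, hu, w, hw, rfl⟩
  · rintro ⟨u, hu, w, hw, rfl⟩
    exact Submodule.add_mem_sup ⟨u, hu, rfl⟩ ⟨w, hw, rfl⟩

/-- inflation of a module along the projection -/
def Inf (_E : Ext D R) (L : Type u) : Type u := L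

instance (L : Type u) [AddCommGroup L] : AddCommGroup (Inf E L) :=
  inferInstanceAs (AddCommGroup L)

instance (L : Type u) [AddCommGroup L] [Module U L] : Module R (Inf E L) :=
  Module.compHom L (E.π : R →+* U)

/-- levels of a free module -/
def FF {T : Type} (hd : T → ℕ) (gd : T → I) (i : ℕ) (a : I) (u : T → U) : Prop :=
  ∀ t, (hd t = i → u t ∈ Λ.Uf a (gd t)) ∧ (¬ hd t = i → u t = 0)

/-- levels of a column of free modules -/
def WW {T : Type} (hd : T → ℕ) (gd : T → I) (i : ℕ) (a : I) (w : ρ → T → U) : Prop :=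
  ∀ t, (hd t = i → (fun c => w c t) ∈ Λ.Vf a (gd t)) ∧ (¬ hd t = i → ∀ c, w c t = 0)

/-- a levelwise exact resolution -/
structure Res (l : ℕ) (L : Type u) [AddCommGroup L] [Module U L] where
  T : Type
  [fT : Fintype T]
  [dT : DecidableEq T]
  hd : T → ℕ
  gd : T → I
  d : (T → U) →ₗ[U] (T → U)
  ε : (T → U) →ₗ[U] L
  d_mem : ∀ t t', (hd t = hd t' + 1 → d (Pi.single t 1) t' ∈ Λ.Uf (gd t) (gd t')) ∧
    (¬ hd t = hd t' + 1 → d (Pi.single t 1) t' = 0)
  dd : ∀ x, d (d x) = 0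
  εd : ∀ x, ε (d x) = 0
  ε_zero : ∀ t, hd t ≠ 0 → ε (Pi.single t 1) = 0
  exF : ∀ i a x, FF Λ hd gd i a x → d x = 0 → ε x = 0 → ∃ x', FF Λ hd gd (i + 1) a x' ∧ d x' = x
  surjF : ∀ a l, ∃ x, FF Λ hd gd 0 a x ∧ ε x = l
  exW : ∀ i a w, WW Λ hd gd i a w → (∀ c, d (w c) = 0) → (∀ c, ε (w c) = 0) →
    ∃ w', WW Λ hd gd (i + 1) a w' ∧ ∀ c, d (w' c) = w c
  surjW : ∀ a (l : ρ → L), ∃ w, WW Λ hd gd 0 a w ∧ ∀ c, ε (w c) = l c
  exY : ∀ i a y, WW Λ hd gd i a (act D.η y) → (∀ c, d (y c) = 0) → (∀ c, ε (y c) = 0) →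
    ∃ y', WW Λ hd gd (i + 1) a (act D.η y') ∧ ∀ c, d (y' c) = y c
  surjY : ∀ a (l : ρ → L), ∃ y, WW Λ hd gd 0 a (act D.η y) ∧ ∀ c, ε (y c) = l c
  hd_le : ∀ t, hd t ≤ l
  t₀ : T
  hd_t₀ : hd t₀ = l
  bot : ∀ t, hd t + 1 = l → Λ.Uf (gd t) (gd t₀) = ⊥

/-- identification of kernel and cokernel -/
structure Kap (D : Dat k U ρ) (L' L : Type u) [AddCommGroup L] [Module U L] [AddCommGroup L']
    [Module U L'] where
  κ₀ : (ρ → L) →+ L'
  κ₁ : (ρ → L) →+ L'
  κ₀_eq : ∀ u l, κ₀ (act (D.φ u) l) = u • κ₀ l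
  κ₀_η : ∀ l, κ₀ (act D.η l) = 0
  κ₀_ker : ∀ l, κ₀ l = 0 → ∃ l', l = act D.η l'
  κ₀_surj : ∀ x, ∃ l, κ₀ l = x
  κ₁_eq : ∀ u l, act D.η l = 0 → κ₁ (act (D.φ u) l) = u • κ₁ l
  κ₁_inj : ∀ l, act D.η l = 0 → κ₁ l = 0 → l = 0
  κ₁_surj : ∀ x, ∃ l, act D.η l = 0 ∧ κ₁ l = x

section Emb

variable {T : Type}

/-- the embedding of pairs -/
def emb (u : T → U) (w : ρ → T → U) : T → R := fun t => E.j (u t) + E.ν (fun c => w c t)

theorem emb_add (u u' : T → U) (w w' : ρ → T → U) :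
    emb E (u + u') (w + w') = emb E u w + emb E u' w' := by
  funext t
  have : (fun c => (w + w') c t) = (fun c => w c t) + fun c => w' c t := rfl
  change E.j (u t + u' t) + E.ν (fun c => (w + w') c t) = emb E u w t + emb E u' w' t
  simp only [emb, map_add, this]
  abel

theorem emb_surj (x : T → R) : ∃ u w, x = emb E u w := by
  choose w hw using fun t => E.dec (x t)
  exact ⟨fun t => E.π (x t), fun c t => w t c, funext hw⟩

theorem π_emb (u : T → U) (w : ρ → T → U) (t : T) : E.π (emb E u w t) = u t := by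
  simp [emb, E.πj, E.πν]

theorem emb_eq_iff {u u' : T → U} {w w' : ρ → T → U} :
    emb E u w = emb E u' w' ↔ u = u' ∧ ∃ y, w - w' = act D.η y := by
  constructor
  · intro h
    have hu : u = u' := funext fun t => by rw [← π_emb E u w t, h, π_emb]
    subst hu
    refine ⟨rfl, ?_⟩
    have : ∀ t, ∃ y, (fun c => (w - w') c t) = act D.η y := by
      intro t
      rw [← E.ker]
      have h1 := congrFun h t
      simp only [emb, add_right_inj] at h1
      have : (fun c => (w - w') c t) = (fun c => w c t) - fun c => w' c t := rfl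
      rw [this, map_sub, h1, sub_self]
    choose y hy using this
    refine ⟨fun c t => y t c, ?_⟩
    funext c t
    exact (congrFun (hy t) c).trans (congrFun (act_col D.η (fun c t => y t c) t) c).symm
  · rintro ⟨rfl, y, hy⟩
    funext t
    simp only [emb, add_right_inj]
    rw [← sub_eq_zero, ← map_sub, E.ker]
    refine ⟨fun c => y c t, ?_⟩
    rw [← act_col, ← hy]
    rfl

theorem emb_zero : emb E (0 : T → U) 0 = 0 := by
  funext t
  change E.j 0 + E.ν 0 = 0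
  simp

theorem emb_eq_zero {u : T → U} {w : ρ → T → U} :
    emb E u w = 0 ↔ u = 0 ∧ ∃ y, w = act D.η y := by
  rw [← emb_zero E, emb_eq_iff, sub_zero]

theorem smul_emb (u' : U) (w' : ρ → U) (u : T → U) (w : ρ → T → U) :
    (E.j u' + E.ν w') • emb E u w = emb E (u' • u) (act (D.φ u') w + fun c => w' c • u) := by
  funext t
  have : (fun c => (act (D.φ u') w + fun c => w' c • u) c t) =
      act (D.φ u') (fun c => w c t) + fun c => w' c * u t := by
    rw [← act_col]; rfl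
  simp only [emb, Pi.smul_apply, smul_eq_mul, add_mul, mul_add, E.νν, E.jν, E.νj, map_mul,
    add_zero, this, map_add]
  abel

omit [Fintype I] [DecidableEq I] in
theorem mem_free_iff {hd : T → ℕ} {gd : T → I} {i : ℕ} {a : I} {x : T → R} :
    x ∈ (Fam.free (Λ.win E) gd (fun t => hd t = i)).S a ↔
      ∃ u w, FF Λ hd gd i a u ∧ WW Λ hd gd i a w ∧ x = emb E u w := by
  rw [Fam.mem_free]
  constructor
  · intro h
    have : ∀ t, ∃ u w, ((hd t = i → u ∈ Λ.Uf a (gd t)) ∧ (¬ hd t = i → u = 0)) ∧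
        ((hd t = i → w ∈ Λ.Vf a (gd t)) ∧ (¬ hd t = i → w = 0)) ∧ x t = E.j u + E.ν w := by
      intro t
      by_cases ht : hd t = i
      · obtain ⟨u, hu, w, hw, hx⟩ := (Λ.mem_win E).1 ((h t).1 ht)
        exact ⟨u, w, ⟨fun _ => hu, fun h' => absurd ht h'⟩, ⟨fun _ => hw, fun h' => absurd ht h'⟩,
          hx⟩
      · exact ⟨0, 0, ⟨fun h' => absurd h' ht, fun _ => rfl⟩, ⟨fun h' => absurd h' ht, fun _ => rfl⟩,
          by simp [(h t).2 ht]⟩
    choose u w hu hw hx using this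
    exact ⟨u, fun c t => w t c, hu, fun t => ⟨(hw t).1, fun h c => congrFun ((hw t).2 h) c⟩,
      funext hx⟩
  · rintro ⟨u, w, hu, hw, rfl⟩ t
    refine ⟨fun ht => (Λ.mem_win E).2 ⟨_, (hu t).1 ht, _, (hw t).1 ht, rfl⟩, fun ht => ?_⟩
    have : (fun c => w c t) = 0 := funext ((hw t).2 ht)
    simp [emb, (hu t).2 ht, this]

omit [Fintype I] [DecidableEq I] in
theorem WW.sub {hd : T → ℕ} {gd : T → I} {i : ℕ} {a : I} {w w' : ρ → T → U}
    (h : WW Λ hd gd i a w) (h' : WW Λ hd gd i a w') : WW Λ hd gd i a (w - w') := fun t =>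
  ⟨fun ht => Submodule.sub_mem _ ((h t).1 ht) ((h' t).1 ht),
    fun ht c => by simp [(h t).2 ht c, (h' t).2 ht c]⟩

omit [Fintype I] [DecidableEq I] in
theorem FF.zero {hd : T → ℕ} {gd : T → I} {i : ℕ} {a : I} : FF Λ hd gd i a 0 := fun _ =>
  ⟨fun _ => Submodule.zero_mem _, fun _ => rfl⟩

end Emb

namespace Res

variable {Λ} {l : ℕ} {L : Type u} [AddCommGroup L] [Module U L] (S : Res Λ l L)

attribute [instance] Res.fT Res.dT

omit [Fintype I] [DecidableEq I] in
theorem d_apply (x : S.T → U) (t' : S.T) : S.d x t' = ∑ t, x t * S.d (Pi.single t 1) t' := by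
  conv_lhs => rw [pi_eq_sum_univ' x]
  simp

omit [Fintype I] [DecidableEq I] in
theorem ε_apply (x : S.T → U) : S.ε x = ∑ t, x t • S.ε (Pi.single t 1) := by
  conv_lhs => rw [pi_eq_sum_univ' x]
  simp

omit [Fintype I] [DecidableEq I] in
theorem ε_eq_zero {i : ℕ} (hi : i ≠ 0) {x : S.T → U} (hx : ∀ t, ¬ S.hd t = i → x t = 0) :
    S.ε x = 0 := by
  rw [ε_apply]
  refine Finset.sum_eq_zero fun t _ => ?_
  by_cases ht : S.hd t = i
  · rw [S.ε_zero t (ht ▸ hi), smul_zero]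
  · rw [hx t ht, zero_smul]

omit [Fintype I] [DecidableEq I] in
theorem d_eq_zero {x : S.T → U} (hx : ∀ t, ¬ S.hd t = 0 → x t = 0) : S.d x = 0 := by
  funext t'
  rw [d_apply]
  refine Finset.sum_eq_zero fun t _ => ?_
  by_cases ht : S.hd t = 0
  · rw [(S.d_mem t t').2 (by omega), mul_zero]
  · rw [hx t ht, zero_mul]

omit [Fintype I] [DecidableEq I] in
theorem FF_d {i : ℕ} {a : I} {x : S.T → U} (hx : FF Λ S.hd S.gd (i + 1) a x) :
    FF Λ S.hd S.gd i a (S.d x) := by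
  intro t'
  rw [d_apply]
  constructor
  · intro ht'
    refine Submodule.sum_mem _ fun t _ => ?_
    by_cases ht : S.hd t = i + 1
    · exact Λ.UU ((hx t).1 ht) ((S.d_mem t t').1 (by omega))
    · rw [(hx t).2 ht, zero_mul]; exact Submodule.zero_mem _
  · intro ht'
    refine Finset.sum_eq_zero fun t _ => ?_
    by_cases ht : S.hd t = i + 1
    · rw [(S.d_mem t t').2 (by omega), mul_zero]
    · rw [(hx t).2 ht, zero_mul]

omit [Fintype I] [DecidableEq I] in
theorem WW_d {i : ℕ} {a : I} {w : ρ → S.T → U} (hw : WW Λ S.hd S.gd (i + 1) a w) :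
    WW Λ S.hd S.gd i a (fun c => S.d (w c)) := by
  intro t'
  constructor
  · intro ht'
    have : (fun c => S.d (w c) t') = ∑ t, fun c => w c t * S.d (Pi.single t 1) t' := by
      funext c; rw [d_apply]; simp
    rw [this]
    refine Submodule.sum_mem _ fun t _ => ?_
    by_cases ht : S.hd t = i + 1
    · exact Λ.VU ((hw t).1 ht) ((S.d_mem t t').1 (by omega))
    · have : (fun c => w c t * S.d (Pi.single t 1) t') = 0 := by
        funext c; simp [(hw t).2 ht c]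
      rw [this]; exact Submodule.zero_mem _
  · intro ht' c
    change S.d (w c) t' = 0
    rw [d_apply]
    refine Finset.sum_eq_zero fun t _ => ?_
    by_cases ht : S.hd t = i + 1
    · rw [(S.d_mem t t').2 (by omega), mul_zero]
    · rw [(hw t).2 ht, zero_mul]

/-- the differential over the extension -/
def dR : (S.T → R) →ₗ[R] (S.T → R) :=
  Matrix.vecMulLinear (Matrix.of fun t t' => E.j (S.d (Pi.single t 1) t'))

omit [Fintype I] [DecidableEq I] in
theorem dR_emb (u : S.T → U) (w : ρ → S.T → U) :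
    S.dR E (emb E u w) = emb E (S.d u) (fun c => S.d (w c)) := by
  funext t'
  have : (fun c => S.d (w c) t') = ∑ t, fun c => w c t * S.d (Pi.single t 1) t' := by
    funext c; rw [d_apply]; simp
  simp only [dR, Matrix.vecMulLinear_apply, Matrix.vecMul, dotProduct, Matrix.of_apply, emb,
    add_mul, E.νj, this, map_sum, Finset.sum_add_distrib]
  rw [d_apply, map_sum]
  simp

/-- the augmentation over the extension -/
def εR : (S.T → R) →ₗ[R] Inf E L where
  toFun x := S.ε (fun t => E.π (x t))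
  map_add' x y := by
    change S.ε _ = S.ε _ + S.ε _
    rw [← map_add]; congr 1; funext t; simp
  map_smul' r x := by
    change S.ε _ = E.π r • S.ε _
    rw [← map_smul]; congr 1; funext t; simp

omit [Fintype I] [DecidableEq I] in
theorem εR_emb (u : S.T → U) (w : ρ → S.T → U) : S.εR E (emb E u w) = S.ε u := by
  change S.ε _ = _
  congr 1; funext t; exact π_emb E u w t

/-- the free families -/
def Cf (i : ℕ) : Fam (Λ.win E) (S.T → R) := Fam.free (Λ.win E) S.gd (fun t => S.hd t = i)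

/-- the boundaries -/
def Bf (i : ℕ) : Fam (Λ.win E) (S.T → R) := (S.Cf E (i + 1)).map (S.dR E)

omit [Fintype I] [DecidableEq I] in
theorem dR_mem {i : ℕ} {a : I} {x : S.T → R} (hx : x ∈ (S.Cf E (i + 1)).S a) :
    S.dR E x ∈ (S.Cf E i).S a := by
  obtain ⟨u, w, hu, hw, rfl⟩ := (mem_free_iff Λ E).1 hx
  exact (mem_free_iff Λ E).2 ⟨_, _, S.FF_d hu, S.WW_d hw, S.dR_emb E u w⟩

omit [Fintype I] [DecidableEq I] in
theorem dR_dR (x : S.T → R) : S.dR E (S.dR E x) = 0 := by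
  obtain ⟨u, w, rfl⟩ := emb_surj E x
  rw [dR_emb, dR_emb, ← emb_zero E]
  simp only [S.dd]
  rfl

omit [Fintype I] [DecidableEq I] in
theorem η_inj {T : Type} {y : ρ → T → U} (h : act D.η y = 0) : y = 0 := by
  funext c t
  have := D.inj (fun c => y c t) (by rw [← act_col, h]; rfl)
  exact congrFun this c

omit [Fintype I] [DecidableEq I] in
/-- the main exactness statement -/
theorem exact_aux {i : ℕ} {a : I} {u : S.T → U} {w y : ρ → S.T → U}
    (hu : FF Λ S.hd S.gd (i + 1) a u) (hw : WW Λ S.hd S.gd (i + 1) a w) (hdu : S.d u = 0)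
    (hy : (fun c => S.d (w c)) = act D.η y) (hε : ∀ c, S.ε (y c) = 0) :
    emb E u w ∈ (S.Bf E (i + 1)).S a := by
  obtain ⟨u', hu', rfl⟩ := S.exF _ _ _ hu hdu (S.ε_eq_zero (by omega) fun t ht => (hu t).2 ht)
  have h1 : (fun c => S.d (y c)) = 0 := by
    apply η_inj (D := D)
    rw [← map_act, ← hy]
    funext c; exact S.dd _
  obtain ⟨y', hy', hy''⟩ := S.exY i a y (hy ▸ S.WW_d hw) (congrFun h1) hε
  have h2 := WW.sub Λ hw hy'
  obtain ⟨w', hw', hw''⟩ := S.exW _ _ _ h2 (by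
      intro c
      have e1 := congrFun hy c
      have e2 := congrFun (map_act S.d D.η y') c
      simp only [hy''] at e2
      rw [Pi.sub_apply, map_sub, e1, e2, sub_self])
    (fun c => S.ε_eq_zero (i := i + 1) (by omega) fun t ht => (h2 t).2 ht c)
  refine ⟨emb E u' w', (mem_free_iff Λ E).2 ⟨_, _, hu', hw', rfl⟩, ?_⟩
  change S.dR E _ = _
  rw [dR_emb, emb_eq_iff]
  refine ⟨rfl, -y', ?_⟩
  rw [← zero_sub, act_sub, act_zero]
  funext c
  simp [hw'']

omit [Fintype I] [DecidableEq I] in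
theorem ex_high {i : ℕ} (a : I) (x : S.T → R) :
    x ∈ (S.Bf E (i + 2)).S a ↔ x ∈ (S.Cf E (i + 2)).S a ∧ S.dR E x = 0 := by
  constructor
  · rintro ⟨x', hx', rfl⟩
    exact ⟨S.dR_mem E hx', S.dR_dR E x'⟩
  · rintro ⟨hx, hx'⟩
    obtain ⟨u, w, hu, hw, rfl⟩ := (mem_free_iff Λ E).1 hx
    rw [dR_emb, emb_eq_zero] at hx'
    obtain ⟨h1, y, hy⟩ := hx'
    refine S.exact_aux E hu hw h1 hy fun c => S.ε_eq_zero (i := i + 1) (by omega) fun t ht => ?_
    have h3 : act D.η (fun c => y c t) = 0 := by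
      rw [← act_col, ← hy]
      funext c
      exact ((S.WW_d hw) t).2 ht c
    exact congrFun (D.inj _ h3) c

variable {L' : Type u} [AddCommGroup L'] [Module U L'] (K : Kap D L' L)

/-- the map onto the cokernel -/
noncomputable def α (x : S.T → R) : L' :=
  K.κ₀ fun c => S.ε ((emb_surj E x).choose_spec.choose c)

omit [Fintype I] [DecidableEq I] in
theorem α_emb (u : S.T → U) (w : ρ → S.T → U) :
    S.α E K (emb E u w) = K.κ₀ fun c => S.ε (w c) := by
  have h := (emb_surj E (emb E u w)).choose_spec.choose_spec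
  obtain ⟨-, y, hy⟩ := (emb_eq_iff E).1 h
  unfold α
  generalize (emb_surj E (emb E u w)).choose_spec.choose = w' at hy ⊢
  have : (fun c => S.ε (w c)) = (fun c => S.ε (w' c)) + act D.η fun c => S.ε (y c) := by
    rw [← map_act, ← hy]; funext c; simp
  rw [this, map_add, K.κ₀_η, add_zero]

open Classical in
/-- the connecting map -/
noncomputable def β (x : S.T → R) : L' :=
  if h : ∃ y u w, x = emb E u w ∧ (fun c => S.d (w c)) = act D.η y then
    K.κ₁ fun c => S.ε (h.choose c) else 0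

omit [Fintype I] [DecidableEq I] in
theorem β_emb (u : S.T → U) (w y : ρ → S.T → U) (hy : (fun c => S.d (w c)) = act D.η y) :
    S.β E K (emb E u w) = K.κ₁ fun c => S.ε (y c) := by
  have h : ∃ y u' w', emb E u w = emb E u' w' ∧ (fun c => S.d (w' c)) = act D.η y :=
    ⟨y, u, w, rfl, hy⟩
  unfold β
  rw [dif_pos h]
  obtain ⟨u', w', h1, h2⟩ := h.choose_spec
  generalize h.choose = y' at h2 ⊢
  obtain ⟨-, z, hz⟩ := (emb_eq_iff E).1 h1
  have h3 : y - y' - (fun c => S.d (z c)) = 0 := by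
    apply η_inj (D := D)
    rw [act_sub, act_sub, ← hy, ← h2, ← map_act, ← hz]
    funext c; simp
  congr 1
  funext c
  have := congrArg S.ε (congrFun h3 c)
  simp only [Pi.sub_apply, map_sub, S.εd, sub_zero, Pi.zero_apply, map_zero] at this
  exact (sub_eq_zero.1 this).symm

include K in
theorem ses₂ : SE (S.Bf E 0).obj ((S.Cf E 0).ker (S.εR E)).obj
    (Fam.top (Λ.win E) (Inf E L')).obj := by
  refine ses (M' := Inf E L') _ _ _ (g := fun x => (S.α E K x : L')) ⟨fun _ _ _ => trivial, ?_, ?_⟩ ?_ ?_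
  · intro a x _ x' _
    obtain ⟨u, w, rfl⟩ := emb_surj E x
    obtain ⟨u', w', rfl⟩ := emb_surj E x'
    rw [← emb_add, α_emb, α_emb, α_emb]
    change _ = K.κ₀ _ + K.κ₀ _
    rw [← map_add]; congr 1; funext c; simp
  · rintro a b r - x ⟨-, hx⟩
    obtain ⟨u, w, rfl⟩ := emb_surj E x
    obtain ⟨w', hr⟩ := E.dec r
    have hu : S.ε u = 0 := (S.εR_emb E u w).symm.trans hx
    conv_lhs => rw [hr, smul_emb]
    rw [α_emb, α_emb]
    change _ = E.π r • K.κ₀ _
    rw [← K.κ₀_eq, ← map_act]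
    congr 1; funext c; simp [hu]
  · intro a x
    constructor
    · rintro ⟨x', hx', rfl⟩
      refine ⟨⟨S.dR_mem E hx', ?_⟩, ?_⟩
      · obtain ⟨u, w, rfl⟩ := emb_surj E x'
        change S.εR E (S.dR E _) = 0
        rw [dR_emb, εR_emb, S.εd]; rfl
      · obtain ⟨u, w, rfl⟩ := emb_surj E x'
        change S.α E K (S.dR E _) = 0
        rw [dR_emb, α_emb]
        simp only [S.εd]
        exact map_zero K.κ₀
    · rintro ⟨⟨hx, hx'⟩, hx''⟩
      obtain ⟨u, w, hu, hw, rfl⟩ := (mem_free_iff Λ E).1 hx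
      have hu0 : S.ε u = 0 := (S.εR_emb E u w).symm.trans hx'
      rw [α_emb] at hx''
      obtain ⟨l', hl'⟩ := K.κ₀_ker _ hx''
      obtain ⟨y, hy, hy'⟩ := S.surjY a l'
      obtain ⟨u', hu', rfl⟩ := S.exF _ _ _ hu (S.d_eq_zero fun t ht => (hu t).2 ht) hu0
      have h2 := WW.sub Λ hw hy
      obtain ⟨w', hw', hw''⟩ := S.exW _ _ _ h2
        (fun c => S.d_eq_zero fun t ht => (h2 t).2 ht c) (by
          intro c
          have e1 := congrFun hl' c
          have e2 := congrFun (map_act S.ε D.η y) c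
          simp only [hy'] at e2
          rw [Pi.sub_apply, map_sub, e1, e2, sub_self])
      refine ⟨emb E u' w', (mem_free_iff Λ E).2 ⟨_, _, hu', hw', rfl⟩, ?_⟩
      change S.dR E _ = _
      rw [dR_emb, emb_eq_iff]
      refine ⟨rfl, -y, ?_⟩
      rw [← zero_sub, act_sub, act_zero]
      funext c
      simp [hw'']
  · intro a z _
    obtain ⟨l', rfl⟩ := K.κ₀_surj z
    obtain ⟨w, hw, hw'⟩ := S.surjW a l'
    refine ⟨emb E 0 w, ⟨(mem_free_iff Λ E).2 ⟨_, _, FF.zero Λ, hw, rfl⟩, ?_⟩, ?_⟩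
    · change S.εR E _ = 0
      rw [εR_emb, map_zero]; rfl
    · rw [α_emb]; simp only [hw']; rfl

include K in
theorem ses₄ : SE (S.Bf E 1).obj ((S.Cf E 1).ker (S.dR E)).obj
    (Fam.top (Λ.win E) (Inf E L')).obj := by
  have key : ∀ x, S.dR E x = 0 → ∃ u w y, x = emb E u w ∧ S.d u = 0 ∧
      (fun c => S.d (w c)) = act D.η y := by
    intro x hx
    obtain ⟨u, w, rfl⟩ := emb_surj E x
    rw [dR_emb, emb_eq_zero] at hx
    obtain ⟨h1, y, hy⟩ := hx
    exact ⟨u, w, y, rfl, h1, hy⟩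
  have kη : ∀ (w y : ρ → S.T → U), (fun c => S.d (w c)) = act D.η y →
      act D.η (fun c => S.ε (y c)) = 0 := by
    intro w y hy
    rw [← map_act, ← hy]
    funext c; exact S.εd _
  refine ses (M' := Inf E L') _ _ _ (g := fun x => (S.β E K x : L')) ⟨fun _ _ _ => trivial, ?_, ?_⟩ ?_ ?_
  · rintro a x ⟨-, hx⟩ x' ⟨-, hx'⟩
    obtain ⟨u, w, y, rfl, -, hy⟩ := key x hx
    obtain ⟨u', w', y', rfl, -, hy'⟩ := key x' hx'
    rw [← emb_add, S.β_emb E K _ _ (y + y'), S.β_emb E K _ _ _ hy, S.β_emb E K _ _ _ hy']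
    · change _ = K.κ₁ _ + K.κ₁ _
      rw [← map_add]; congr 1; funext c; simp
    · rw [act_add, ← hy, ← hy']; funext c; simp
  · rintro a b r - x ⟨-, hx⟩
    obtain ⟨u, w, y, rfl, hu, hy⟩ := key x hx
    obtain ⟨w', hr⟩ := E.dec r
    conv_lhs => rw [hr, smul_emb]
    rw [S.β_emb E K _ _ (act (D.φ (E.π r)) y), S.β_emb E K _ _ _ hy]
    · change _ = E.π r • K.κ₁ _
      rw [← K.κ₁_eq _ _ (kη w y hy), ← map_act]
    · rw [← act_mul, D.comm, act_mul, ← hy, ← map_act]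
      funext c; simp [hu]
  · intro a x
    constructor
    · rintro ⟨x', hx', rfl⟩
      refine ⟨⟨S.dR_mem E hx', S.dR_dR E x'⟩, ?_⟩
      obtain ⟨u, w, rfl⟩ := emb_surj E x'
      change S.β E K (S.dR E _) = 0
      rw [dR_emb, S.β_emb E K _ _ 0]
      · simp only [Pi.zero_apply, map_zero]
        exact map_zero K.κ₁
      · rw [act_zero]; funext c; exact S.dd _
    · rintro ⟨⟨hx, hx'⟩, hx''⟩
      obtain ⟨u, w, hu, hw, rfl⟩ := (mem_free_iff Λ E).1 hx
      have hx3 : S.dR E (emb E u w) = 0 := hx'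
      rw [dR_emb, emb_eq_zero] at hx3
      obtain ⟨h1, y, hy⟩ := hx3
      rw [S.β_emb E K _ _ _ hy] at hx''
      exact S.exact_aux E hu hw h1 hy (congrFun (K.κ₁_inj _ (kη w y hy) hx''))
  · intro a z _
    obtain ⟨l', hl, rfl⟩ := K.κ₁_surj z
    obtain ⟨y, hy, hy'⟩ := S.surjY a l'
    obtain ⟨w, hw, hw'⟩ := S.exW _ _ _ hy (fun c => S.d_eq_zero fun t ht => (hy t).2 ht c) (by
      intro c
      have e2 := congrFun (map_act S.ε D.η y) c
      simp only [hy'] at e2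
      rw [e2, hl]; rfl)
    have h3 : (fun c => S.d (w c)) = act D.η y := funext hw'
    refine ⟨emb E 0 w, ⟨(mem_free_iff Λ E).2 ⟨_, _, FF.zero Λ, hw, rfl⟩, ?_⟩, ?_⟩
    · change S.dR E _ = 0
      rw [dR_emb, emb_eq_zero]
      exact ⟨map_zero _, y, h3⟩
    · rw [S.β_emb E K _ _ _ h3]; simp only [hy']; rfl

omit [Fintype I] [DecidableEq I] in
theorem Bf_top (a : I) (x : S.T → R) (hx : x ∈ (S.Bf E l).S a) : x = 0 := by
  obtain ⟨x', hx', rfl⟩ := hx
  have : x' = 0 := funext fun t => (hx' t).2 (by have := S.hd_le t; omega)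
  rw [this]; exact map_zero _

omit [Fintype I] [DecidableEq I] in
theorem εR_surj (a : I) (z : Inf E L) : ∃ y ∈ (S.Cf E 0).S a, S.εR E y = z := by
  obtain ⟨x, hx, hx'⟩ := S.surjF a z
  exact ⟨emb E x 0, (mem_free_iff Λ E).2 ⟨_, _, hx,
    fun _ => ⟨fun _ => Submodule.zero_mem _, fun _ _ => rfl⟩, rfl⟩, (S.εR_emb E _ _).trans hx'⟩

include S in
theorem finite : Module.Finite (Λ.win E).A (Fam.top (Λ.win E) (Inf E L)).mod := by
  have : Module.Finite (Λ.win E).A (S.Cf E 0).mod :=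
    free_finite (Λ.win E) S.gd (fun t => S.hd t = 0)
  exact Module.Finite.of_surjective
    (compat_lin (S.Cf E 0) (Fam.top (Λ.win E) (Inf E L)) (S.εR E) fun _ _ _ => trivial).map
    (Compat.map_surj _ fun a z _ => S.εR_surj E a z)

theorem nonproj [Nontrivial U] (hl : 3 ≤ l) : ¬ Projective (S.Bf E (l - 2)).obj := by
  intro hp
  obtain ⟨m, rfl⟩ : ∃ m, l = m + 3 := ⟨l - 3, by omega⟩
  let p : (S.T → R) →ₗ[R] Inf E U :=
    { toFun := fun x => E.π (x S.t₀)
      map_add' := fun x y => map_add E.π _ _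
      map_smul' := fun r x => map_mul E.π _ _ }
  have h := le_of_projective (S.Bf E (m + 2)) (S.Bf E (m + 1))
    (compat_lin (S.Cf E (m + 2)) _ (S.dR E) fun a x hx => ⟨x, hx, rfl⟩) (S.ex_high E)
    (fun a z hz => hz) hp (((S.Cf E (m + 3)).ker p).map (S.dR E)) (by
      rintro t ht _ ⟨x, hx, rfl⟩
      refine ⟨x, ⟨hx, ?_⟩, rfl⟩
      obtain ⟨u, hu, w, -, h⟩ := (Λ.mem_win E).1 ((hx S.t₀).1 S.hd_t₀)
      rw [S.bot t (by omega), Submodule.mem_bot] at hu
      change E.π (x S.t₀) = 0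
      rw [h, hu, map_zero, zero_add, E.πν]) (S.gd S.t₀)
  have h1 : (Pi.single S.t₀ 1 : S.T → R) ∈ (S.Cf E (m + 3)).S (S.gd S.t₀) := by
    intro t
    by_cases ht : t = S.t₀
    · subst ht
      exact ⟨fun _ => by simpa using (Λ.win E).one_mem _, fun h => absurd S.hd_t₀ h⟩
    · simp [Pi.single_eq_of_ne ht]
  obtain ⟨x, ⟨hx, hx'⟩, hx''⟩ := h ⟨_, h1, rfl⟩
  have h2 : x - Pi.single S.t₀ 1 = 0 := by
    refine S.Bf_top E (S.gd S.t₀) _ ((S.ex_high E (i := m + 1) _ _).2 ⟨sub_mem hx h1, ?_⟩)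
    rw [map_sub]
    exact sub_eq_zero.2 hx''
  rw [sub_eq_zero] at h2
  have h3 : E.π (x S.t₀) = 0 := hx'
  rw [h2] at h3
  simp at h3

/-- the step data -/
noncomputable def step [Nontrivial U] (hl : 3 ≤ l) :
    Step l (Fam.top (Λ.win E) (Inf E L')).obj (Fam.top (Λ.win E) (Inf E L)).obj where
  P i := (S.Cf E i).obj
  B i := (S.Bf E i).obj
  J := ((S.Cf E 0).ker (S.εR E)).obj
  Z := ((S.Cf E 1).ker (S.dR E)).obj
  proj _ := free_projective _ _ _
  s₁ := ses _ _ _ (compat_lin _ _ (S.εR E) fun _ _ _ => trivial) (fun _ _ => Iff.rfl)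
    fun a z _ => S.εR_surj E a z
  s₂ := S.ses₂ E K
  s₃ := ses _ _ _ (compat_lin _ _ (S.dR E) fun a x hx => ⟨x, hx, rfl⟩) (fun _ _ => Iff.rfl)
    fun a z hz => hz
  s₄ := S.ses₄ E K
  s₅ i hi := by
    obtain ⟨m, rfl⟩ : ∃ m, i = m + 1 := ⟨i - 1, by omega⟩
    exact ses _ _ _ (compat_lin _ _ (S.dR E) fun a x hx => ⟨x, hx, rfl⟩) (S.ex_high E)
      fun a z hz => hz
  top := Fam.lt_zero _ (S.Bf_top E)
  nonproj := S.nonproj E hl

end Res

/-- The general criterion: chains of modules of unbounded length give an algebra with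
finitely generated modules of arbitrarily large finite projective dimension. -/
theorem criterion [Nontrivial U] (D : Dat k U ρ) (Λ : Lev D I) {l : ℕ} (hl : 3 ≤ l)
    (h : ∀ N : ℕ, ∃ L : ℕ → ModuleCat.{u} U, Subsingleton (L 0) ∧
      ∀ n, n ≤ N → Nonempty (Res Λ l (L (n + 1))) ∧ Nonempty (Kap D (L n) (L (n + 1)))) :
    ∃ (A : Type u) (_ : Ring A) (_ : Algebra k A), FiniteDimensional k A ∧
      ∀ n : ℕ, ∃ M : ModuleCat.{u} A, Module.Finite A M ∧
        projectiveDimension M = ((l + 2 * n : ℕ) : WithBot ℕ∞) := by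
  refine ⟨(Λ.win D.ext).A, inferInstance, inferInstance, Win.finite _, fun n => ?_⟩
  obtain ⟨L, h0, hL⟩ := h n
  have := chain hl (fun n => (Fam.top (Λ.win D.ext) (Inf D.ext (L n))).obj)
    (Fam.lt_zero _ fun _ x _ => Subsingleton.elim (α := L 0) x 0) n (fun m hm => by
      obtain ⟨⟨S⟩, ⟨K⟩⟩ := hL m hm
      exact ⟨S.step D.ext K hl⟩) n le_rfl
  obtain ⟨S⟩ := (hL n le_rfl).1
  refine ⟨(Fam.top (Λ.win D.ext) (Inf D.ext (L (n + 1)))).obj, S.finite D.ext, le_antisymm ?_ ?_⟩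
  · exact (projectiveDimension_le_iff _ _).2 this.1
  · exact (projectiveDimension_ge_iff _ _).2 this.2

end Vale.Agent.P176
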