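import Vale.Agent.P176.Fermi
import Vale.Agent.P176.Res

/-!
The Chevalley-Eilenberg resolution of a finite dimensional module and its levelwise exactness.
-/

namespace Vale.Agent.P176

universe u

set_option linter.unusedSectionVars false

section Abstract

variable {A : Type*} [Ring A]

theorem brst_sq (ρ c : Fin 4 → A) (Q : A)
    (hρ : ∀ i j, ρ j * ρ i - ρ i * ρ j = ∑ m, br i j m • ρ m)
    (hc : ∀ i j, c j * ρ i = ρ i * c j) (hQ : ∀ i, Q * ρ i = ρ i * Q)
    (hcc : ∀ i j, c i * c j + c j * c i = 0)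
    (hcq : ∀ m, ∑ i, ∑ j, br i j m • (c i * c j) = 2 • (c m * Q + Q * c m)) (hqq : Q * Q = 0) :
    2 • ((∑ i, ρ i * c i + Q) * (∑ i, ρ i * c i + Q)) = 0 := by
  have h1 : (∑ i, ρ i * c i) * (∑ i, ρ i * c i) = ∑ i, ∑ j, ρ i * ρ j * (c i * c j) := by
    rw [Finset.sum_mul_sum]
    refine Finset.sum_congr rfl fun i _ => Finset.sum_congr rfl fun j _ => ?_
    rw [mul_assoc, ← mul_assoc (c i), hc]; simp only [mul_assoc]
  have h2 : ∑ i, ∑ j, ρ i * ρ j * (c i * c j) = -∑ i, ∑ j, ρ j * ρ i * (c i * c j) := by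
    rw [Finset.sum_comm, ← Finset.sum_neg_distrib]
    refine Finset.sum_congr rfl fun i _ => ?_
    rw [← Finset.sum_neg_distrib]
    refine Finset.sum_congr rfl fun j _ => ?_
    rw [← mul_neg, neg_eq_of_add_eq_zero_right (hcc i j)]
  have h3 : 2 • ∑ i, ∑ j, ρ i * ρ j * (c i * c j) = -∑ m, ρ m * (2 • (c m * Q + Q * c m)) := by
    rw [two_nsmul]
    nth_rewrite 2 [h2]
    have : ∑ m, ρ m * (2 • (c m * Q + Q * c m)) =
        ∑ i, ∑ j, (ρ j * ρ i - ρ i * ρ j) * (c i * c j) := by
      simp only [← hcq, hρ, Finset.mul_sum, Finset.sum_mul, mul_smul_comm, smul_mul_assoc]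
      rw [Finset.sum_comm]
      refine Finset.sum_congr rfl fun i _ => ?_
      rw [Finset.sum_comm]
    rw [this]
    simp only [sub_mul, Finset.sum_sub_distrib]
    abel
  have h4 : (∑ i, ρ i * c i) * Q + Q * (∑ i, ρ i * c i) = ∑ m, ρ m * (c m * Q + Q * c m) := by
    rw [Finset.sum_mul, Finset.mul_sum, ← Finset.sum_add_distrib]
    refine Finset.sum_congr rfl fun i _ => ?_
    rw [← mul_assoc Q, hQ, mul_add]; simp only [mul_assoc]
  have h5 : (∑ i, ρ i * c i + Q) * (∑ i, ρ i * c i + Q) =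
      ∑ i, ∑ j, ρ i * ρ j * (c i * c j) + ∑ m, ρ m * (c m * Q + Q * c m) := by
    rw [← h1, ← h4, add_mul, mul_add, mul_add, hqq]; abel
  rw [h5, smul_add, h3, Finset.smul_sum]
  simp only [mul_smul_comm]
  abel

theorem homotopy_id (R D c w : Fin 4 → A)
    (h1 : ∀ i j, c i * D j = D j * c i) (h2 : ∀ i j, w j * R i = R i * w j)
    (hcw : ∀ i j, c i * w j + w j * c i = if i = j then 1 else 0) :
    (∑ i, R i * c i) * (∑ j, D j * w j) + (∑ j, D j * w j) * (∑ i, R i * c i) =
      ∑ i, R i * D i + ∑ i, w i * c i +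
        ∑ i, ∑ j, (D j * R i - R i * D j - if j = i then 1 else 0) * (w j * c i) := by
  rw [Finset.sum_mul_sum, Finset.sum_mul_sum, Finset.sum_comm (f := fun j i => D j * w j * _),
    ← Finset.sum_add_distrib, ← Finset.sum_add_distrib, ← Finset.sum_add_distrib]
  refine Finset.sum_congr rfl fun i _ => ?_
  have e1 : R i * D i = ∑ j, R i * D j * (c i * w j + w j * c i) := by simp [hcw]
  have e2 : w i * c i = ∑ j, (if j = i then 1 else 0) * (w j * c i) := by simp
  rw [e1, e2, ← Finset.sum_add_distrib, ← Finset.sum_add_distrib, ← Finset.sum_add_distrib]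
  refine Finset.sum_congr rfl fun j _ => ?_
  have e3 : R i * c i * (D j * w j) = R i * D j * (c i * w j) := by
    rw [mul_assoc, ← mul_assoc (c i), h1]; simp only [mul_assoc]
  have e4 : D j * w j * (R i * c i) = D j * R i * (w j * c i) := by
    rw [mul_assoc, ← mul_assoc (w j), h2]; simp only [mul_assoc]
  rw [e3, e4]
  noncomm_ring

end Abstract

variable {k : Type u} [Field k] {ι : Type} [Fintype ι] [DecidableEq ι]

/-- the underlying space of the complex -/
abbrev VV (k : Type u) [Field k] (ι : Type) : Type u := Fin 16 × ι → UU k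

/-- operators given by integer matrices -/
noncomputable def opA₀ (A : Matrix (Fin 16) (Fin 16) ℤ) : Module.End k (VV k ι) where
  toFun := fun x p => ∑ s, A p.1 s • x (s, p.2)
  map_add' := fun x y => by funext p; simp [Finset.sum_add_distrib]
  map_smul' := fun c x => by funext p; simp [Finset.smul_sum]

theorem opA₀_apply (A : Matrix (Fin 16) (Fin 16) ℤ) (x : VV k ι) (p : Fin 16 × ι) :
    opA₀ (k := k) A x p = ∑ s, A p.1 s • x (s, p.2) := rfl

/-- operators given by integer matrices -/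
noncomputable def opA : Matrix (Fin 16) (Fin 16) ℤ →+* Module.End k (VV k ι) where
  toFun := opA₀
  map_one' := LinearMap.ext fun x => funext fun p => by simp [opA₀_apply, Matrix.one_apply]
  map_mul' A B := LinearMap.ext fun x => funext fun p => by
    simp only [opA₀_apply, Module.End.mul_apply, Matrix.mul_apply,
      Finset.sum_smul, Finset.smul_sum, mul_smul]
    rw [Finset.sum_comm]
  map_zero' := LinearMap.ext fun x => funext fun p => by simp [opA₀_apply]
  map_add' A B := LinearMap.ext fun x => funext fun p => by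
    simp only [opA₀_apply, add_smul, Finset.sum_add_distrib, Matrix.add_apply,
      LinearMap.add_apply, Pi.add_apply]

theorem opA_apply (A : Matrix (Fin 16) (Fin 16) ℤ) (x : VV k ι) (p : Fin 16 × ι) :
    opA (k := k) A x p = ∑ s, A p.1 s • x (s, p.2) := rfl

/-- operators acting on the second index -/
noncomputable def opS₀ (A : Matrix ι ι k) : Module.End k (VV k ι) where
  toFun := fun x p => ∑ t, A p.2 t • x (p.1, t)
  map_add' := fun x y => by funext p; simp [Finset.sum_add_distrib]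
  map_smul' := fun c x => by funext p; simp [Finset.smul_sum, smul_comm c]

theorem opS₀_apply (A : Matrix ι ι k) (x : VV k ι) (p : Fin 16 × ι) :
    opS₀ A x p = ∑ t, A p.2 t • x (p.1, t) := rfl

/-- operators acting on the second index -/
noncomputable def opS : Matrix ι ι k →+* Module.End k (VV k ι) where
  toFun := opS₀
  map_one' := LinearMap.ext fun x => funext fun p => by simp [opS₀_apply, Matrix.one_apply]
  map_mul' A B := LinearMap.ext fun x => funext fun p => by
    simp only [opS₀_apply, Module.End.mul_apply, Matrix.mul_apply,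
      Finset.sum_smul, Finset.smul_sum, mul_smul]
    rw [Finset.sum_comm]
  map_zero' := LinearMap.ext fun x => funext fun p => by simp [opS₀_apply]
  map_add' A B := LinearMap.ext fun x => funext fun p => by
    simp only [opS₀_apply, add_smul, Finset.sum_add_distrib, Matrix.add_apply,
      LinearMap.add_apply, Pi.add_apply]

theorem opS_apply (A : Matrix ι ι k) (x : VV k ι) (p : Fin 16 × ι) :
    opS A x p = ∑ t, A p.2 t • x (p.1, t) := rfl

/-- pointwise operators -/
noncomputable def pw (f : UU k →ₗ[k] UU k) : Module.End k (VV k ι) := f.compLeft _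

theorem pw_apply (f : UU k →ₗ[k] UU k) (x : VV k ι) (p : Fin 16 × ι) : pw f x p = f (x p) := rfl

theorem opA_pw (A : Matrix (Fin 16) (Fin 16) ℤ) (f : UU k →ₗ[k] UU k) :
    opA A * pw f = (pw f * opA A : Module.End k (VV k ι)) := by
  refine LinearMap.ext fun x => funext fun p => ?_
  simp only [Module.End.mul_apply, opA_apply, pw_apply, map_sum, map_zsmul]

theorem opS_pw (A : Matrix ι ι k) (f : UU k →ₗ[k] UU k) :
    opS A * pw f = (pw f * opS A : Module.End k (VV k ι)) := by
  refine LinearMap.ext fun x => funext fun p => ?_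
  simp [opS_apply, pw_apply]

theorem opA_opS (A : Matrix (Fin 16) (Fin 16) ℤ) (B : Matrix ι ι k) :
    opA A * opS B = (opS B * opA A : Module.End k (VV k ι)) := by
  refine LinearMap.ext fun x => funext fun p => ?_
  simp only [Module.End.mul_apply, opA_apply, opS_apply, Finset.smul_sum]
  rw [Finset.sum_comm]
  simp only [smul_comm (A _ _)]

/-- order filtration -/
noncomputable def Ord (ι : Type) (q : ℤ) : Submodule k (VV k ι) := Submodule.pi Set.univ fun _ => fil q

theorem mem_Ord {q : ℤ} {x : VV k ι} : x ∈ Ord ι q ↔ ∀ p, x p ∈ fil q := by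
  simp [Ord, Submodule.mem_pi]

/-- exterior degree -/
def Deg (ι : Type) (i : ℕ) : Submodule k (VV k ι) where
  carrier := {x | ∀ p, ¬ dg p.1 = i → x p = 0}
  add_mem' := fun hx hy p hp => by simp [hx p hp, hy p hp]
  zero_mem' := fun _ _ => rfl
  smul_mem' := fun c x hx p hp => by simp [hx p hp]

/-- operators of bounded order -/
def OO (m : ℤ) (T : Module.End k (VV k ι)) : Prop := ∀ q, ∀ x ∈ Ord ι q, T x ∈ Ord ι (q + m)

section OO

theorem OO.mul {m n : ℤ} {T T' : Module.End k (VV k ι)} (h : OO m T) (h' : OO n T') :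
    OO (n + m) (T * T') := fun q x hx => by
  rw [← add_assoc]; exact h _ _ (h' q x hx)

theorem OO.add {m : ℤ} {T T' : Module.End k (VV k ι)} (h : OO m T) (h' : OO m T') :
    OO m (T + T') := fun q x hx => add_mem (h q x hx) (h' q x hx)

theorem OO.sub {m : ℤ} {T T' : Module.End k (VV k ι)} (h : OO m T) (h' : OO m T') :
    OO m (T - T') := fun q x hx => sub_mem (h q x hx) (h' q x hx)

theorem OO.sum {m : ℤ} {T : Fin 4 → Module.End k (VV k ι)} (h : ∀ i, OO m (T i)) :
    OO m (∑ i, T i) := fun q x hx => by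
  rw [LinearMap.sum_apply]; exact Submodule.sum_mem _ fun i _ => h i q x hx

theorem OO.mono {m n : ℤ} {T : Module.End k (VV k ι)} (h : OO m T) (hmn : m ≤ n) : OO n T :=
  fun q x hx => mem_Ord.2 fun p => mem_mono (mem_Ord.1 (h q x hx) p) (by omega)

theorem OO_opA (A : Matrix (Fin 16) (Fin 16) ℤ) : OO (k := k) (ι := ι) 0 (opA A) := by
  intro q x hx
  rw [add_zero]
  refine mem_Ord.2 fun p => ?_
  rw [opA_apply]
  exact Submodule.sum_mem _ fun s _ => zsmul_mem (mem_Ord.1 hx _) _

theorem OO_pw {m : ℤ} {f : UU k →ₗ[k] UU k} (hf : ∀ q, ∀ u ∈ fil q, f u ∈ fil (q + m)) :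
    OO (ι := ι) m (pw f) := fun q _ hx => mem_Ord.2 fun p => hf q _ (mem_Ord.1 hx p)

theorem Deg_pw (f : UU k →ₗ[k] UU k) {i : ℕ} {x : VV k ι} (hx : x ∈ Deg ι i) :
    pw f x ∈ Deg ι i := fun p hp => by rw [pw_apply, hx p hp, map_zero]

theorem Deg_down {A : Matrix (Fin 16) (Fin 16) ℤ} (hA : ∀ s s', A s s' = 0 ∨ dg s' = dg s + 1)
    {i : ℕ} {x : VV k ι} (hx : x ∈ Deg ι (i + 1)) : opA (k := k) A x ∈ Deg ι i := by
  intro p hp
  rw [opA_apply]
  refine Finset.sum_eq_zero fun s _ => ?_
  rcases hA p.1 s with h | h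
  · rw [h, zero_smul]
  · rw [hx (s, p.2) (by dsimp only; omega), smul_zero]

theorem Deg_down_zero {A : Matrix (Fin 16) (Fin 16) ℤ}
    (hA : ∀ s s', A s s' = 0 ∨ dg s' = dg s + 1) {x : VV k ι} (hx : x ∈ Deg ι 0) :
    opA (k := k) A x = 0 := by
  funext p
  rw [opA_apply]
  refine Finset.sum_eq_zero fun s _ => ?_
  rcases hA p.1 s with h | h
  · rw [h, zero_smul]
  · rw [hx (s, p.2) (by dsimp only; omega), smul_zero]

theorem Deg_up {A : Matrix (Fin 16) (Fin 16) ℤ} (hA : ∀ s s', A s s' = 0 ∨ dg s = dg s' + 1)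
    {i : ℕ} {x : VV k ι} (hx : x ∈ Deg ι i) : opA (k := k) A x ∈ Deg ι (i + 1) := by
  intro p hp
  rw [opA_apply]
  refine Finset.sum_eq_zero fun s _ => ?_
  rcases hA p.1 s with h | h
  · rw [h, zero_smul]
  · rw [hx (s, p.2) (by dsimp only; omega), smul_zero]

end OO

theorem OO_opS (A : Matrix ι ι k) : OO (k := k) (ι := ι) 0 (opS A) := by
  intro q x hx
  rw [add_zero]
  exact mem_Ord.2 fun p => Submodule.sum_mem _ fun s _ => Submodule.smul_mem _ _ (mem_Ord.1 hx _)

theorem Deg_opS (A : Matrix ι ι k) {i : ℕ} {x : VV k ι} (hx : x ∈ Deg ι i) :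
    opS A x ∈ Deg ι i := fun p hp =>
  Finset.sum_eq_zero fun t _ => by rw [hx (p.1, t) hp, smul_zero]

variable {L : Type u} [AddCommGroup L] [Module (UU k) L] [Module k L] [IsScalarTower k (UU k) L]
  (b : Module.Basis ι k L)

/-- matrices of the action -/
noncomputable def σ : UU k →ₐ[k] Matrix ι ι k :=
  (LinearMap.toMatrixAlgEquiv b).toAlgHom.comp (Algebra.lsmul k k L)

theorem σ_spec (u : UU k) (t' : ι) : ∑ t, σ b u t t' • b t = u • b t' := by
  conv_rhs => rw [← b.sum_repr (u • b t')]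
  refine Finset.sum_congr rfl fun t _ => ?_
  simp [σ, LinearMap.toMatrixAlgEquiv_apply]

/-- right multiplication -/
noncomputable def Rm (i : Fin 4) : Module.End k (VV k ι) := pw (LinearMap.mulRight k (E i))

theorem Rm_apply (i : Fin 4) (x : VV k ι) (p : Fin 16 × ι) : Rm i x p = x p * E i := rfl

theorem opA_Rm (A : Matrix (Fin 16) (Fin 16) ℤ) (i : Fin 4) :
    opA A * Rm i = (Rm i * opA A : Module.End k (VV k ι)) := opA_pw _ _

theorem opS_Rm (A : Matrix ι ι k) (i : Fin 4) :
    opS A * Rm i = (Rm i * opS A : Module.End k (VV k ι)) := opS_pw _ _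

theorem Deg_Rm (j : Fin 4) {i : ℕ} {x : VV k ι} (hx : x ∈ Deg ι i) : Rm j x ∈ Deg ι i :=
  Deg_pw _ hx

/-- the right action -/
noncomputable def ρo (i : Fin 4) : Module.End k (VV k ι) := Rm i - opS (σ b (E i))

/-- the differential -/
noncomputable def dO : Module.End k (VV k ι) := ∑ i, ρo b i * opA (cM i) + opA qM

/-- the homotopy -/
noncomputable def hO : Module.End k (VV k ι) := ∑ j, pw (dd j) * opA (wM j)

theorem ρo_comm (i j : Fin 4) : ρo b j * ρo b i - ρo b i * ρo b j = ∑ m, br i j m • ρo b m := by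
  have hR : (Rm j * Rm i - Rm i * Rm j : Module.End k (VV k ι)) = ∑ m, br i j m • Rm m := by
    refine LinearMap.ext fun x => funext fun p => ?_
    simp only [LinearMap.sub_apply, Module.End.mul_apply, Pi.sub_apply, Rm_apply,
      LinearMap.sum_apply, Finset.sum_apply, LinearMap.smul_apply, Pi.smul_apply]
    rw [mul_assoc, mul_assoc, ← mul_sub, E_comm, Finset.mul_sum]
    simp only [mul_smul_comm]
  have hS := ((E_six (k := k)).map ((opS (k := k) (ι := ι)).comp (σ b : UU k →+* _))).comm i j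
  simp only [RingHom.comp_apply, RingHom.coe_coe] at hS
  simp only [ρo, smul_sub, Finset.sum_sub_distrib, ← hR, ← hS, mul_sub, sub_mul, opS_Rm]
  abel

theorem dO_sq [CharZero k] : dO b * dO b = 0 := by
  have := brst_sq (ρo b) (fun i => opA (cM i)) (opA qM) (ρo_comm b)
    (fun i j => by simp only [ρo, mul_sub, sub_mul, opA_Rm, opA_opS])
    (fun i => by simp only [ρo, mul_sub, sub_mul, opA_Rm, opA_opS])
    (fun i j => by rw [← map_mul, ← map_mul, ← map_add, cc, map_zero])
    (fun m => by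
      have := congrArg (opA (k := k) (ι := ι)) (cq m)
      simpa only [map_sum, map_zsmul, map_nsmul, map_mul, map_add] using this)
    (by rw [← map_mul, qq, map_zero])
  rw [← Nat.cast_smul_eq_nsmul k] at this
  exact (smul_eq_zero.1 this).resolve_left (by norm_num)

theorem OO_Rm (i : Fin 4) : OO (k := k) (ι := ι) 1 (Rm i) :=
  OO_pw fun _ _ hu => mul_E_mem hu i

theorem OO_dO : OO 1 (dO b) :=
  (OO.sum fun i => (((OO_Rm i).sub ((OO_opS _).mono (by omega))).mul (OO_opA _)).mono
    (by omega)).add ((OO_opA _).mono (by omega))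

theorem OO_hO : OO (k := k) (ι := ι) (-1) hO :=
  OO.sum fun j => ((OO_pw (m := -1) fun _ _ hu => dd_mem hu j).mul (OO_opA _)).mono (by omega)

theorem Deg_dO {i : ℕ} {x : VV k ι} (hx : x ∈ Deg ι (i + 1)) : dO b x ∈ Deg ι i := by
  rw [dO, LinearMap.add_apply, LinearMap.sum_apply]
  refine add_mem (Submodule.sum_mem _ fun j _ => ?_) (Deg_down q_dg hx)
  rw [Module.End.mul_apply, ρo, LinearMap.sub_apply]
  exact sub_mem (Deg_Rm _ (Deg_down (c_dg j) hx)) (Deg_opS _ (Deg_down (c_dg j) hx))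

theorem Deg_dO_zero {x : VV k ι} (hx : x ∈ Deg ι 0) : dO b x = 0 := by
  rw [dO, LinearMap.add_apply, LinearMap.sum_apply, Deg_down_zero q_dg hx, add_zero]
  refine Finset.sum_eq_zero fun j _ => ?_
  rw [Module.End.mul_apply, Deg_down_zero (c_dg j) hx, map_zero]

theorem Deg_hO {i : ℕ} {x : VV k ι} (hx : x ∈ Deg ι i) : hO x ∈ Deg ι (i + 1) := by
  rw [hO, LinearMap.sum_apply]
  exact Submodule.sum_mem _ fun j _ => Deg_pw _ (Deg_up (w_dg j) hx)

/-- lower order part of the differential -/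
noncomputable def d₁ : Module.End k (VV k ι) := opA qM - ∑ i, opS (σ b (E i)) * opA (cM i)

theorem OO_d₁ : OO 0 (d₁ b) :=
  (OO_opA _).sub (OO.sum fun _ => ((OO_opS _).mul (OO_opA _)).mono (by omega))

/-- error term -/
noncomputable def er : Module.End k (VV k ι) := ∑ i, ∑ j,
  (pw (dd j) * Rm i - Rm i * pw (dd j) - if j = i then 1 else 0) * (opA (wM j) * opA (cM i))

theorem OO_er : OO (k := k) (ι := ι) (-1) er := by
  have h : ∀ i j : Fin 4, OO (k := k) (ι := ι) (-1)
      (pw (dd j) * Rm i - Rm i * pw (dd j) - if j = i then 1 else 0) := by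
    intro i j q x hx
    refine mem_Ord.2 fun p => ?_
    have := dd_mul_mem (mem_Ord.1 hx p) j i
    rw [LinearMap.sub_apply, LinearMap.sub_apply, Pi.sub_apply, Pi.sub_apply, Module.End.mul_apply,
      Module.End.mul_apply, pw_apply, Rm_apply, Rm_apply, pw_apply]
    by_cases h : j = i
    · rw [if_pos h] at this ⊢; exact this
    · rw [if_neg h] at this ⊢; exact this
  exact OO.sum fun i => OO.sum fun j => ((h i j).mul ((OO_opA _).mul (OO_opA _))).mono (by omega)

theorem homotopy_op : dO b * hO + hO * dO b = pw eul + opA (Matrix.diagonal fun s => (dg s : ℤ)) +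
    (er + (d₁ b * hO + hO * d₁ b)) := by
  have h1 := homotopy_id (A := Module.End k (VV k ι)) Rm (fun j => pw (dd j))
    (fun i => opA (cM i)) (fun j => opA (wM j)) (fun i j => opA_pw _ _) (fun i j => opA_Rm _ _)
    (fun i j => by
      rw [← map_mul, ← map_mul, ← map_add, cw]
      split_ifs
      · exact map_one _
      · exact map_zero _)
  have h2 : dO b = ∑ i, Rm i * opA (cM i) + d₁ b := by
    simp only [dO, ρo, d₁, sub_mul, Finset.sum_sub_distrib]; abel
  have e1 : (pw eul : Module.End k (VV k ι)) = ∑ i, Rm i * pw (dd i) := by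
    refine LinearMap.ext fun x => funext fun p => ?_
    simp only [pw_apply, eul_apply, Rm_apply, LinearMap.sum_apply, Finset.sum_apply,
      Module.End.mul_apply]
  rw [e1, ← wc, map_sum]
  simp only [map_mul]
  rw [← add_assoc, er, ← h1, h2, add_mul, mul_add, ← hO]
  abel

theorem homotopy {i : ℕ} {q : ℤ} {x : VV k ι} (hx : x ∈ Deg ι i) (hq : x ∈ Ord ι q) :
    dO b (hO x) + hO (dO b x) - ((q : k) + i) • x ∈ Ord ι (q - 1) := by
  have h4 : opA (k := k) (Matrix.diagonal fun s => (dg s : ℤ)) x = (i : k) • x := by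
    funext p
    rw [opA_apply, Finset.sum_eq_single p.1, Matrix.diagonal_apply_eq, Pi.smul_apply]
    · by_cases hp : dg p.1 = i
      · rw [hp, natCast_zsmul, Nat.cast_smul_eq_nsmul]
      · rw [hx p hp, smul_zero, smul_zero]
    · intro s _ hs
      rw [Matrix.diagonal_apply_ne _ hs.symm, zero_smul]
    · simp
  have h5 := LinearMap.congr_fun (homotopy_op b) x
  rw [LinearMap.add_apply, Module.End.mul_apply, Module.End.mul_apply, LinearMap.add_apply,
    LinearMap.add_apply, h4] at h5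
  have h6 : pw eul x - (q : k) • x ∈ Ord ι (q - 1) :=
    mem_Ord.2 fun p => eul_mem (mem_Ord.1 hq p)
  have h7 : OO (-1) (er + (d₁ b * hO + hO * d₁ b)) :=
    OO_er.add ((((OO_d₁ b).mul OO_hO).mono (by omega)).add ((OO_hO.mul (OO_d₁ b)).mono (by omega)))
  have h8 : ∀ a c d e : VV k ι, a + c + d - (e + c) = a - e + d := fun a c d e => by abel
  rw [h5, add_smul, h8]
  exact add_mem h6 (h7 q x hq)

/-- the augmentation -/
noncomputable def εO : VV k ι →ₗ[UU k] L where
  toFun x := ∑ t, x (0, t) • b t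
  map_add' x y := by simp [add_smul, Finset.sum_add_distrib]
  map_smul' u x := by simp [Finset.smul_sum, mul_smul]

theorem εO_apply (x : VV k ι) : εO b x = ∑ t, x (0, t) • b t := rfl

theorem εO_smul (c : k) (x : VV k ι) : εO b (c • x) = c • εO b x := by
  simp [εO_apply, Finset.smul_sum]

theorem εO_dO (x : VV k ι) : εO b (dO b x) = 0 := by
  rw [dO, LinearMap.add_apply, LinearMap.sum_apply, map_add, map_sum]
  have h1 : εO b (opA (k := k) qM x) = 0 := by simp [εO_apply, opA_apply, q_zero]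
  rw [h1, add_zero]
  refine Finset.sum_eq_zero fun i _ => ?_
  rw [Module.End.mul_apply]
  generalize opA (k := k) (cM i) x = y
  rw [ρo, LinearMap.sub_apply, map_sub, sub_eq_zero]
  simp only [εO_apply, Rm_apply, opS_apply, Finset.sum_smul, mul_smul, ← σ_spec b (E i),
    Finset.smul_sum]
  rw [Finset.sum_comm]
  simp only [smul_assoc, smul_comm (y _)]

theorem exact_CE [CharZero k] (i : ℕ) (q : ℤ) (x : VV k ι) (hx : x ∈ Deg ι i) (hq : x ∈ Ord ι q)
    (hd : dO b x = 0) (hε : εO b x = 0) :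
    ∃ x', x' ∈ Deg ι (i + 1) ∧ x' ∈ Ord ι (q - 1) ∧ dO b x' = x := by
  have base : ∀ q : ℤ, q < 0 → ∀ x ∈ Ord (k := k) ι q, x = 0 := by
    intro q h x hx
    funext p
    have := mem_Ord.1 hx p
    rwa [fil_neg h, Submodule.mem_bot] at this
  by_cases h : q < 0
  · exact ⟨0, zero_mem _, zero_mem _, by rw [base q h x hq, map_zero]⟩
  obtain ⟨n, rfl⟩ := Int.eq_ofNat_of_zero_le (not_lt.1 h)
  clear h
  induction n generalizing x with
  | zero =>
    by_cases hi : i = 0
    · subst hi
      refine ⟨0, zero_mem _, zero_mem _, ?_⟩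
      choose c hc using fun p => mem_fil_zero (mem_Ord.1 hq p)
      have h1 : ∑ t, c (0, t) • b t = 0 := by simpa [εO_apply, hc] using hε
      have h2 := Fintype.linearIndependent_iff.1 b.linearIndependent _ h1
      rw [map_zero]
      funext p
      by_cases hp : dg p.1 = 0
      · obtain ⟨s, t⟩ := p
        obtain rfl := (dg_zero s).1 hp
        rw [hc, h2 t, zero_smul]; rfl
      · exact (hx p hp).symm
    · have h1 := base _ (by simp) _ (homotopy b hx hq)
      have hi' : (i : k) ≠ 0 := Nat.cast_ne_zero.2 hi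
      refine ⟨(i : k)⁻¹ • hO x, Submodule.smul_mem _ _ (Deg_hO hx),
        Submodule.smul_mem _ _ (by rw [sub_eq_add_neg]; exact OO_hO _ _ hq), ?_⟩
      rw [hd, map_zero, add_zero, sub_eq_zero] at h1
      rw [map_smul, h1, smul_smul]
      simp [hi']
  | succ n ih =>
    have h1 := homotopy b hx hq
    rw [hd, map_zero, add_zero] at h1
    have hne : (((n + 1 : ℕ) : ℤ) : k) + i ≠ 0 := by
      have : (((n + 1 : ℕ) : ℤ) : k) + i = ((n + 1 + i : ℕ) : k) := by push_cast; ring
      rw [this]; exact Nat.cast_ne_zero.2 (by omega)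
    obtain ⟨x', h2, h3, h4⟩ := ih (dO b (hO x) - ((((n + 1 : ℕ) : ℤ) : k) + i) • x)
      (sub_mem (Deg_dO b (Deg_hO hx)) (Submodule.smul_mem _ _ hx))
      (by rw [map_sub, map_smul, hd, smul_zero, sub_zero, ← Module.End.mul_apply, dO_sq]; rfl)
      (by rw [map_sub, εO_dO, εO_smul, hε, smul_zero, sub_zero])
      (by convert h1 using 2; push_cast; ring)
    refine ⟨((((n + 1 : ℕ) : ℤ) : k) + i)⁻¹ • (hO x - x'),
      Submodule.smul_mem _ _ (sub_mem (Deg_hO hx) h2),
      Submodule.smul_mem _ _ (sub_mem (by rw [sub_eq_add_neg]; exact OO_hO _ _ hq) ?_), ?_⟩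
    · exact mem_Ord.2 fun p => mem_mono (mem_Ord.1 h3 p) (by push_cast; omega)
    · rw [map_smul, map_sub, h4, sub_sub_cancel, smul_smul, inv_mul_cancel₀ hne, one_smul]

theorem surj_CE {q : ℤ} (hq : 0 ≤ q) (l : L) :
    ∃ x, x ∈ Deg ι 0 ∧ x ∈ Ord ι q ∧ εO b x = l := by
  refine ⟨fun p => if p.1 = 0 then b.repr l p.2 • 1 else 0, ?_, mem_Ord.2 fun p => ?_, ?_⟩
  · intro p hp
    exact if_neg fun h => hp ((dg_zero _).2 h)
  · split_ifs
    · exact Submodule.smul_mem _ _ (mem_mono one_mem_fil hq)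
    · exact zero_mem _
  · simp [εO_apply]

theorem dO_smul (u : UU k) (x : VV k ι) : dO b (u • x) = u • dO b x := by
  have hA : ∀ (A : Matrix (Fin 16) (Fin 16) ℤ) (x : VV k ι),
      opA (k := k) A (u • x) = u • opA (k := k) A x := by
    intro A x; funext p
    simp only [opA_apply, Pi.smul_apply, Finset.smul_sum, smul_comm u]
  have hρ : ∀ i (x : VV k ι), ρo b i (u • x) = u • ρo b i x := by
    intro i x; funext p; simp [ρo, Rm_apply, opS_apply, Finset.mul_sum, mul_sub, mul_assoc]
  simp only [dO, LinearMap.add_apply, LinearMap.sum_apply, Module.End.mul_apply, hA, hρ, smul_add,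
    Finset.smul_sum]

/-- the differential as a linear map over the enveloping algebra -/
noncomputable def dU : VV k ι →ₗ[UU k] VV k ι where
  toFun := dO b
  map_add' := map_add _
  map_smul' := dO_smul b

/-- the levels -/
noncomputable def lev (k : Type u) [Field k] : Lev (dat k) (Fin 5) where
  Uf a c := fil ((a : ℤ) - c)
  Vf a c := Submodule.pi Set.univ fun _ => fil ((a : ℤ) - c + 1)
  one_mem a := by simpa using one_mem_fil
  UU hx hy := mem_mono (fil_mul hx hy) (by omega)
  UV hx hw := fun c _ => Submodule.sum_mem _ fun e _ =>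
    mem_mono (fil_mul (φ_mem hx c e) (hw e trivial)) (by omega)
  VU hw hy := fun c _ => mem_mono (fil_mul (hw c trivial) hy) (by omega)
  finU _ _ := fil_fin _
  finV a c := by
    have := fil_fin (k := k) ((a : ℤ) - c + 1)
    exact Module.Finite.iff_fg.2 (Submodule.fg_pi fun _ => Module.Finite.iff_fg.1 this)

/-- homological degree -/
def hdg (p : Fin 16 × ι) : ℕ := dg p.1

/-- internal degree -/
def gdg (p : Fin 16 × ι) : Fin 5 := ⟨dg p.1, Nat.lt_succ_of_le (dg_le _)⟩

theorem gdg_val (p : Fin 16 × ι) : (gdg p : ℕ) = dg p.1 := rfl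

section Transl

theorem aux_iff {i : ℕ} {q : ℤ} {x : VV k ι} :
    (∀ p, (hdg p = i → x p ∈ fil (q - (gdg p : ℕ))) ∧ (¬ hdg p = i → x p = 0)) ↔
      x ∈ Deg ι i ∧ x ∈ Ord ι (q - i) := by
  constructor
  · intro h
    refine ⟨fun p hp => (h p).2 hp, mem_Ord.2 fun p => ?_⟩
    by_cases hp : hdg p = i
    · have := (h p).1 hp
      rwa [show ((gdg p : ℕ) : ℤ) = i from congrArg Nat.cast hp] at this
    · rw [(h p).2 hp]; exact zero_mem _
  · rintro ⟨h1, h2⟩ p
    refine ⟨fun hp => ?_, h1 p⟩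
    rw [show ((gdg p : ℕ) : ℤ) = i from congrArg Nat.cast hp]
    exact mem_Ord.1 h2 p

theorem FF_iff {i : ℕ} {a : Fin 5} {x : VV k ι} :
    FF (lev k) hdg gdg i a x ↔ x ∈ Deg ι i ∧ x ∈ Ord ι ((a : ℕ) - i) := aux_iff

theorem WW_iff {i : ℕ} {a : Fin 5} {w : Fin 2 → VV k ι} :
    WW (lev k) hdg gdg i a w ↔ ∀ c, w c ∈ Deg ι i ∧ w c ∈ Ord ι ((a : ℕ) + 1 - i) := by
  simp only [← aux_iff]
  constructor
  · intro h c p
    exact ⟨fun hp => mem_mono ((h p).1 hp c trivial) (by omega), fun hp => (h p).2 hp c⟩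
  · intro h p
    exact ⟨fun hp c _ => mem_mono ((h c p).1 hp) (by omega), fun hp c => (h c p).2 hp⟩

theorem YY_iff {i : ℕ} {a : Fin 5} {y : Fin 2 → VV k ι} :
    WW (lev k) hdg gdg i a (act (dat k).η y) ↔
      ∀ c, y c ∈ Deg ι i ∧ y c ∈ Ord ι ((a : ℕ) - i) := by
  rw [WW_iff]
  constructor
  · intro h c
    refine ⟨fun p hp => ?_, mem_Ord.2 fun p => ?_⟩
    · refine congrFun ((dat k).inj (fun c => y c p) ?_) c
      rw [← act_col]
      funext c
      exact (h c).1 p hp
    · refine strict (y := fun c => y c p) (fun c => ?_) c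
      have := mem_Ord.1 (h c).2 p
      rw [← act_col]
      exact mem_mono this (by omega)
  · intro h c
    refine ⟨fun p hp => ?_, mem_Ord.2 fun p => ?_⟩
    · have := congrFun (act_col (dat k).η y p) c
      rw [this, show (fun c => y c p) = 0 from funext fun c => (h c).1 p hp, act_zero]; rfl
    · have := congrFun (act_col (dat k).η y p) c
      rw [this]
      exact mem_mono (act_η_mem (fun c => mem_Ord.1 (h c).2 p) c) (by omega)

end Transl

/-- the resolution -/
noncomputable def res [CharZero k] (t₀ : ι) : Res (lev k) 4 L where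
  T := Fin 16 × ι
  hd := hdg
  gd := gdg
  d := dU b
  ε := εO b
  d_mem t t' := by
    have h1 : (Pi.single t 1 : VV k ι) ∈ Deg ι (hdg t) := fun p hp =>
      Pi.single_eq_of_ne (fun h => hp (by rw [h]; rfl)) _
    have h2 : (Pi.single t 1 : VV k ι) ∈ Ord ι 0 := mem_Ord.2 fun p => by
      by_cases h : p = t
      · subst h; simpa using one_mem_fil
      · rw [Pi.single_eq_of_ne h]; exact zero_mem _
    constructor
    · intro h
      refine mem_mono (mem_Ord.1 (OO_dO b _ _ h2) t') ?_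
      change 0 + 1 ≤ ((hdg t : ℕ) : ℤ) - (hdg t' : ℕ)
      omega
    · intro h
      change dO b _ t' = 0
      cases hi : hdg t with
      | zero => rw [Deg_dO_zero b (hi ▸ h1)]; rfl
      | succ i => exact Deg_dO b (hi ▸ h1) t' (by change ¬ hdg t' = i; omega)
  dd x := LinearMap.congr_fun (dO_sq b) x
  εd := εO_dO b
  ε_zero t ht := by
    rw [εO_apply]
    refine Finset.sum_eq_zero fun s _ => ?_
    rw [Pi.single_eq_of_ne, zero_smul]
    rintro rfl
    exact ht ((dg_zero _).2 rfl)
  exF i a x hx hd hε := by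
    obtain ⟨x', h1, h2, h3⟩ := exact_CE b i _ x (FF_iff.1 hx).1 (FF_iff.1 hx).2 hd hε
    exact ⟨x', FF_iff.2 ⟨h1, by convert h2 using 2; push_cast; ring⟩, h3⟩
  surjF a l := by
    obtain ⟨x, h1, h2, h3⟩ := surj_CE b (q := (a : ℕ) - (0 : ℕ)) (by omega) l
    exact ⟨x, FF_iff.2 ⟨h1, h2⟩, h3⟩
  exW i a w hw hd hε := by
    choose x' h1 h2 h3 using fun c =>
      exact_CE b i _ (w c) (WW_iff.1 hw c).1 (WW_iff.1 hw c).2 (hd c) (hε c)
    exact ⟨x', WW_iff.2 fun c => ⟨h1 c, by convert h2 c using 2; push_cast; ring⟩, h3⟩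
  surjW a l := by
    choose x h1 h2 h3 using fun c => surj_CE b (q := (a : ℕ) + 1 - (0 : ℕ)) (by omega) (l c)
    exact ⟨x, WW_iff.2 fun c => ⟨h1 c, h2 c⟩, h3⟩
  exY i a w hw hd hε := by
    choose x' h1 h2 h3 using fun c =>
      exact_CE b i _ (w c) (YY_iff.1 hw c).1 (YY_iff.1 hw c).2 (hd c) (hε c)
    exact ⟨x', YY_iff.2 fun c => ⟨h1 c, by convert h2 c using 2; push_cast; ring⟩, h3⟩
  surjY a l := by
    choose x h1 h2 h3 using fun c => surj_CE b (q := (a : ℕ) - (0 : ℕ)) (by omega) (l c)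
    exact ⟨x, YY_iff.2 fun c => ⟨h1 c, h2 c⟩, h3⟩
  hd_le t := dg_le _
  t₀ := (15, t₀)
  hd_t₀ := dg_top
  bot t ht := by
    refine fil_neg ?_
    have e1 : (gdg t : ℕ) = hdg t := rfl
    have e2 : (gdg ((15 : Fin 16), t₀) : ℕ) = 4 := (gdg_val _).trans dg_top
    omega

end Vale.Agent.P176
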