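import Vale.Agent.P176.GL

/-!
Integer matrices of contraction and wedge operators on the exterior algebra of rank four.
-/

namespace Vale.Agent.P176

/-- number of bits below a position -/
def cnt (s i : ℕ) : ℕ := ((List.range i).filter (fun j => s.testBit j)).length

/-- degree of a basis vector of the exterior algebra -/
def dg (s : Fin 16) : ℕ := cnt s 4

/-- matrices with one entry in each row -/
def mono (f : Fin 16 → Fin 16) (a : Fin 16 → ℤ) : Matrix (Fin 16) (Fin 16) ℤ :=
  Matrix.of fun s s' => if s' = f s then a s else 0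

theorem mono_apply (f : Fin 16 → Fin 16) (a : Fin 16 → ℤ) (s s' : Fin 16) :
    mono f a s s' = if s' = f s then a s else 0 := rfl

theorem mono_mul (f : Fin 16 → Fin 16) (a : Fin 16 → ℤ) (A : Matrix (Fin 16) (Fin 16) ℤ)
    (s s' : Fin 16) : (mono f a * A) s s' = a s * A (f s) s' := by
  simp [Matrix.mul_apply, mono]

/-- flipping a bit -/
def fl (i : Fin 4) (s : Fin 16) : Fin 16 := Fin.ofNat 16 (s.val ^^^ 2 ^ i.val)

/-- sign -/
def sg (i : Fin 4) (s : Fin 16) : ℤ := if cnt s i % 2 = 0 then 1 else -1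

/-- contraction -/
def cM (i : Fin 4) : Matrix (Fin 16) (Fin 16) ℤ :=
  mono (fl i) fun s => if s.val.testBit i then 0 else sg i s

/-- wedge -/
def wM (i : Fin 4) : Matrix (Fin 16) (Fin 16) ℤ :=
  mono (fl i) fun s => if s.val.testBit i then sg i s else 0

/-- first part of the structure term -/
def q1 : Matrix (Fin 16) (Fin 16) ℤ :=
  mono ![0, 6, 3, 11, 5, 13, 0, 0, 6, 7, 11, 0, 13, 0, 0, 0]
    ![0, -1, -1, 1, 1, -1, 0, 0, 1, -1, -1, 0, 1, 0, 0, 0]

/-- second part of the structure term -/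
def q2 : Matrix (Fin 16) (Fin 16) ℤ :=
  mono ![0, 0, 10, 0, 12, 0, 0, 0, 0, 14, 0, 0, 0, 0, 0, 0]
    ![0, 0, -1, 0, 1, 0, 0, 0, 0, -1, 0, 0, 0, 0, 0, 0]

/-- the structure term -/
def qM : Matrix (Fin 16) (Fin 16) ℤ := q1 + q2

theorem cc (i j : Fin 4) : cM i * cM j + cM j * cM i = 0 := by
  ext s s'
  simp only [Matrix.add_apply, cM, mono_mul, mono_apply, Matrix.zero_apply]
  revert s s'
  fin_cases i <;> fin_cases j <;> decide +kernel

theorem cw (i j : Fin 4) : cM i * wM j + wM j * cM i = if i = j then 1 else 0 := by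
  ext s s'
  have : (if i = j then (1 : Matrix (Fin 16) (Fin 16) ℤ) else 0) s s' =
      if i = j ∧ s = s' then 1 else 0 := by
    by_cases h : i = j <;> simp [h, Matrix.one_apply]
  simp only [Matrix.add_apply, cM, wM, mono_mul, mono_apply, this]
  clear this
  revert s s'
  fin_cases i <;> fin_cases j <;> decide +kernel

theorem wc : ∑ i, wM i * cM i = Matrix.diagonal fun s => (dg s : ℤ) := by
  ext s s'
  simp only [Fin.sum_univ_four, Matrix.add_apply, cM, wM, mono_mul, mono_apply,
    Matrix.diagonal_apply]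
  revert s s'
  decide +kernel

theorem qq : qM * qM = 0 := by
  ext s s'
  simp only [qM, add_mul, q1, q2, Matrix.add_apply, mono_mul, mono_apply, Matrix.zero_apply]
  revert s s'
  decide +kernel

theorem cq (m : Fin 4) : ∑ i, ∑ j, br i j m • (cM i * cM j) = 2 • (cM m * qM + qM * cM m) := by
  ext s s'
  simp only [Fin.sum_univ_four, qM, add_mul, q1, q2, cM, Matrix.add_apply, mono_mul, mono_apply,
    Matrix.smul_apply, smul_eq_mul, nsmul_eq_mul]
  revert s s'
  fin_cases m <;> decide +kernel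

theorem c_dg (i : Fin 4) (s s' : Fin 16) : cM i s s' = 0 ∨ dg s' = dg s + 1 := by
  have : ∀ p : Fin 16 × Fin 16, cM i p.1 p.2 = 0 ∨ dg p.2 = dg p.1 + 1 := by
    fin_cases i <;> decide +kernel
  exact this (s, s')

theorem w_dg (i : Fin 4) (s s' : Fin 16) : wM i s s' = 0 ∨ dg s = dg s' + 1 := by
  have : ∀ p : Fin 16 × Fin 16, wM i p.1 p.2 = 0 ∨ dg p.1 = dg p.2 + 1 := by
    fin_cases i <;> decide +kernel
  exact this (s, s')

theorem q_dg (s s' : Fin 16) : qM s s' = 0 ∨ dg s' = dg s + 1 := by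
  have : ∀ p : Fin 16 × Fin 16, qM p.1 p.2 = 0 ∨ dg p.2 = dg p.1 + 1 := by decide +kernel
  exact this (s, s')

theorem q_zero : ∀ s', qM 0 s' = 0 := by decide +kernel

theorem dg_le : ∀ s, dg s ≤ 4 := by decide +kernel

theorem dg_zero : ∀ s, dg s = 0 ↔ s = 0 := by decide +kernel

theorem dg_top : dg 15 = 4 := by decide +kernel

end Vale.Agent.P176
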