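import Vale.Agent.P176.Ext

/-!
The enveloping algebra of `gl₂` by generators and relations, its filtration, the twisting
homomorphism and the Casimir matrix.
-/

namespace Vale.Agent.P176

universe u

open Polynomial

/-- the commutation relations of `gl₂` -/
structure Six {A : Type*} [Ring A] (f : Fin 4 → A) : Prop where
  r01 : f 0 * f 1 = f 1 * f 0 + f 1
  r02 : f 0 * f 2 = f 2 * f 0 - f 2
  r03 : f 0 * f 3 = f 3 * f 0
  r12 : f 1 * f 2 = f 2 * f 1 + f 0 - f 3
  r13 : f 1 * f 3 = f 3 * f 1 + f 1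
  r23 : f 2 * f 3 = f 3 * f 2 - f 2

/-- structure constants -/
def br : Fin 4 → Fin 4 → Fin 4 → ℤ :=
  ![![0, ![0, 1, 0, 0], ![0, 0, -1, 0], 0],
    ![![0, -1, 0, 0], 0, ![1, 0, 0, -1], ![0, 1, 0, 0]],
    ![![0, 0, 1, 0], ![-1, 0, 0, 1], 0, ![0, 0, -1, 0]],
    ![0, ![0, -1, 0, 0], ![0, 0, 1, 0], 0]]

theorem Six.comm {A : Type*} [Ring A] {f : Fin 4 → A} (h : Six f) (i j : Fin 4) :
    f i * f j - f j * f i = ∑ m, br i j m • f m := by
  fin_cases i <;> fin_cases j <;>
    simp [br, Fin.sum_univ_four, h.r01, h.r02, h.r03, h.r12, h.r13, h.r23] <;> abel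

theorem Six.map {A B : Type*} [Ring A] [Ring B] {f : Fin 4 → A} (h : Six f) (g : A →+* B) :
    Six (fun i => g (f i)) := by
  refine ⟨?_, ?_, ?_, ?_, ?_, ?_⟩ <;> rw [← map_mul, ← map_mul] <;>
    simp only [h.r01, h.r02, h.r03, h.r12, h.r13, h.r23, map_add, map_sub]

variable (k : Type u) [Field k]

/-- relations -/
inductive Rel : FreeAlgebra k (Fin 4) → FreeAlgebra k (Fin 4) → Prop
  | r (i j : Fin 4) : Rel (FreeAlgebra.ι k i * FreeAlgebra.ι k j -
      FreeAlgebra.ι k j * FreeAlgebra.ι k i) (∑ m, br i j m • FreeAlgebra.ι k m)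

/-- the enveloping algebra -/
def UU : Type u := RingQuot (Rel k)

noncomputable instance : Ring (UU k) := inferInstanceAs (Ring (RingQuot (Rel k)))

noncomputable instance : Algebra k (UU k) := inferInstanceAs (Algebra k (RingQuot (Rel k)))

variable {k}

/-- the quotient map -/
noncomputable def mkU : FreeAlgebra k (Fin 4) →ₐ[k] UU k := RingQuot.mkAlgHom k (Rel k)

/-- generators -/
noncomputable def E (i : Fin 4) : UU k := mkU (FreeAlgebra.ι k i)

theorem E_comm (i j : Fin 4) : (E i * E j - E j * E i : UU k) = ∑ m, br i j m • E m := by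
  have : mkU _ = mkU _ := RingQuot.mkAlgHom_rel k (Rel.r (k := k) i j)
  simpa [E] using this

theorem E_six : Six (E : Fin 4 → UU k) := by
  refine ⟨?_, ?_, ?_, ?_, ?_, ?_⟩
  · have := E_comm (k := k) 0 1
    simp [br, Fin.sum_univ_four] at this
    rw [sub_eq_iff_eq_add'.1 this]
  · have := E_comm (k := k) 0 2
    simp [br, Fin.sum_univ_four] at this
    rw [sub_eq_iff_eq_add'.1 this, sub_eq_add_neg]
  · have := E_comm (k := k) 0 3
    simp [br] at this
    exact sub_eq_zero.1 this
  · have := E_comm (k := k) 1 2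
    simp [br, Fin.sum_univ_four] at this
    rw [sub_eq_iff_eq_add'.1 this, sub_eq_add_neg, add_assoc]
  · have := E_comm (k := k) 1 3
    simp [br, Fin.sum_univ_four] at this
    rw [sub_eq_iff_eq_add'.1 this]
  · have := E_comm (k := k) 2 3
    simp [br, Fin.sum_univ_four] at this
    rw [sub_eq_iff_eq_add'.1 this, sub_eq_add_neg]

/-- universal property -/
noncomputable def lift {A : Type*} [Ring A] [Algebra k A] (f : Fin 4 → A) (h : Six f) :
    UU k →ₐ[k] A :=
  RingQuot.liftAlgHom k ⟨FreeAlgebra.lift k f, by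
    rintro _ _ ⟨i, j⟩
    simpa using h.comm i j⟩

theorem lift_E {A : Type*} [Ring A] [Algebra k A] (f : Fin 4 → A) (h : Six f) (i : Fin 4) :
    lift (k := k) f h (E i) = f i :=
  (RingQuot.liftAlgHom_mkAlgHom_apply k _ _ _).trans (FreeAlgebra.lift_ι_apply _ _)

theorem U_ind {P : UU k → Prop} (h0 : ∀ c, P (algebraMap k _ c)) (h1 : ∀ i, P (E i))
    (hm : ∀ a b, P a → P b → P (a * b)) (ha : ∀ a b, P a → P b → P (a + b)) (u : UU k) : P u := by
  obtain ⟨x, rfl⟩ : ∃ x, mkU x = u := RingQuot.mkAlgHom_surjective k (Rel k) u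
  induction x using FreeAlgebra.induction with
  | grade0 r => rw [AlgHom.commutes]; exact h0 r
  | grade1 i => exact h1 i
  | mul a b iha ihb => rw [map_mul]; exact hm _ _ iha ihb
  | add a b iha ihb => rw [map_add]; exact ha _ _ iha ihb

/-- filtration indexed by natural numbers -/
noncomputable def filN : ℕ → Submodule k (UU k)
  | 0 => Submodule.span k {1}
  | n + 1 => filN n ⊔ ⨆ i, (filN n).map (LinearMap.mulRight k (E i))

/-- filtration -/
noncomputable def fil (q : ℤ) : Submodule k (UU k) := if q < 0 then ⊥ else filN q.toNat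

theorem fil_neg {q : ℤ} (h : q < 0) : fil (k := k) q = ⊥ := if_pos h

theorem fil_nat (n : ℕ) : fil (k := k) n = filN n := by
  rw [fil, if_neg (by omega)]; rfl

theorem fil_succ (q : ℤ) : fil (k := k) q ≤ fil (q + 1) := by
  by_cases h : q < 0
  · rw [fil_neg h]; exact bot_le
  · obtain ⟨n, rfl⟩ := Int.eq_ofNat_of_zero_le (not_lt.1 h)
    rw [← Nat.cast_succ, fil_nat, fil_nat]
    exact le_sup_left

theorem fil_mono {p q : ℤ} (h : p ≤ q) : fil (k := k) p ≤ fil q := by
  induction q, h using Int.leInduction with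
  | base => exact le_rfl
  | succ q _ ih => exact ih.trans (fil_succ q)

theorem mem_mono {p q : ℤ} {u : UU k} (hu : u ∈ fil p) (h : p ≤ q) : u ∈ fil q := fil_mono h hu

theorem mul_E_mem {q : ℤ} {u : UU k} (hu : u ∈ fil q) (i : Fin 4) : u * E i ∈ fil (q + 1) := by
  by_cases h : q < 0
  · rw [fil_neg h, Submodule.mem_bot] at hu
    rw [hu, zero_mul]; exact Submodule.zero_mem _
  · obtain ⟨n, rfl⟩ := Int.eq_ofNat_of_zero_le (not_lt.1 h)
    rw [← Nat.cast_succ, fil_nat]
    rw [fil_nat] at hu
    exact Submodule.mem_sup_right (Submodule.mem_iSup_of_mem i ⟨u, hu, rfl⟩)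

theorem one_mem_fil : (1 : UU k) ∈ fil 0 := by
  rw [← Nat.cast_zero, fil_nat]; exact Submodule.mem_span_singleton_self _

theorem mem_fil_zero {u : UU k} (hu : u ∈ fil 0) : ∃ c : k, u = c • 1 := by
  rw [← Nat.cast_zero, fil_nat] at hu
  obtain ⟨c, rfl⟩ := Submodule.mem_span_singleton.1 hu
  exact ⟨c, rfl⟩

theorem E_mem (i : Fin 4) : (E i : UU k) ∈ fil 1 := by
  simpa using mul_E_mem (one_mem_fil (k := k)) i

theorem fil_ind (N : ℤ → Submodule k (UU k)) (h1 : (1 : UU k) ∈ N 0)
    (hmono : ∀ q, ∀ u ∈ fil q, u ∈ N q → u ∈ N (q + 1))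
    (hmul : ∀ q, ∀ u ∈ fil q, u ∈ N q → ∀ i, u * E i ∈ N (q + 1)) (q : ℤ) : fil q ≤ N q := by
  by_cases h : q < 0
  · rw [fil_neg h]; exact bot_le
  · obtain ⟨n, rfl⟩ := Int.eq_ofNat_of_zero_le (not_lt.1 h)
    clear h
    induction n with
    | zero => rw [fil_nat]; exact (Submodule.span_singleton_le_iff_mem _ _).2 h1
    | succ n ih =>
      rw [fil_nat]
      refine sup_le (fun u hu => ?_) (iSup_le fun i => ?_)
      · rw [← fil_nat] at hu
        exact hmono _ u hu (ih hu)
      · rintro _ ⟨u, hu, rfl⟩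
        rw [← fil_nat] at hu
        exact hmul _ u hu (ih hu) i

theorem fil_mul {p q : ℤ} {u v : UU k} (hu : u ∈ fil p) (hv : v ∈ fil q) :
    u * v ∈ fil (p + q) := by
  refine fil_ind (fun q => (fil (p + q)).comap (LinearMap.mulLeft k u)) ?_ ?_ ?_ q hv
  · simpa using hu
  · intro q v _ h; exact mem_mono h (by omega)
  · intro q v _ h i
    have := mul_E_mem h i
    simpa [mul_assoc, add_assoc] using this

theorem fil_fin (q : ℤ) : FiniteDimensional k (fil (k := k) q) := by
  have : ∀ n, FiniteDimensional k (filN (k := k) n) := by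
    intro n
    induction n with
    | zero => rw [filN]; infer_instance
    | succ n ih => rw [filN]; infer_instance
  by_cases h : q < 0
  · rw [fil_neg h]; infer_instance
  · rw [fil, if_neg h]; exact this _

theorem fil_exh (u : UU k) : ∃ q, u ∈ fil q := by
  induction u using U_ind with
  | h0 c => exact ⟨0, by rw [Algebra.algebraMap_eq_smul_one]; exact Submodule.smul_mem _ _ one_mem_fil⟩
  | h1 i => exact ⟨1, E_mem i⟩
  | hm a b ha hb => obtain ⟨p, hp⟩ := ha; obtain ⟨q, hq⟩ := hb; exact ⟨_, fil_mul hp hq⟩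
  | ha a b ha hb =>
    obtain ⟨p, hp⟩ := ha; obtain ⟨q, hq⟩ := hb
    exact ⟨max p q, add_mem (mem_mono hp (le_max_left _ _)) (mem_mono hq (le_max_right _ _))⟩

/-- images of the generators under the twist -/
noncomputable def φE : Fin 4 → Matrix (Fin 2) (Fin 2) (UU k) :=
  ![!![E 0 - 1, 0; 0, E 0], !![E 1, 0; -1, E 1], !![E 2, -1; 0, E 2], !![E 3, 0; 0, E 3 - 1]]

theorem φE_six : Six (φE (k := k)) := by
  have h := E_six (k := k)
  refine ⟨?_, ?_, ?_, ?_, ?_, ?_⟩ <;> ext a b <;> fin_cases a <;> fin_cases b <;>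
    simp [φE, Matrix.mul_apply, Fin.sum_univ_two, mul_sub, sub_mul, h.r01, h.r02, h.r03, h.r12,
      h.r13, h.r23] <;> abel

/-- the twist by the dual of the standard representation -/
noncomputable def φ : UU k →ₐ[k] Matrix (Fin 2) (Fin 2) (UU k) := lift φE φE_six

theorem φ_E (i : Fin 4) : φ (E i : UU k) = φE i := lift_E _ _ _

/-- the Casimir matrix -/
noncomputable def η : Matrix (Fin 2) (Fin 2) (UU k) := !![E 3 + 1, -E 1; -E 2, E 0 + 1]

theorem η_comm (u : UU k) : η * φ u = φ u * η := by
  have h := E_six (k := k)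
  induction u using U_ind with
  | h0 c => rw [AlgHom.commutes, Algebra.commutes]
  | h1 i =>
    rw [φ_E]
    fin_cases i <;> ext a b <;> fin_cases a <;> fin_cases b <;>
      simp [φE, η, Matrix.mul_apply, Fin.sum_univ_two, mul_sub, sub_mul, mul_add, add_mul, h.r01,
        h.r02, h.r03, h.r12, h.r13, h.r23] <;> abel
  | hm a b ha hb => rw [map_mul, ← mul_assoc, ha, mul_assoc, hb, mul_assoc]
  | ha a b ha hb => rw [map_add, mul_add, add_mul, ha, hb]

theorem φE_mem (i : Fin 4) (a b : Fin 2) : φE (k := k) i a b ∈ fil 1 := by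
  have h1 : (1 : UU k) ∈ fil 1 := mem_mono one_mem_fil (by omega)
  fin_cases i <;> fin_cases a <;> fin_cases b <;>
    simp [φE, sub_mem, h1, E_mem]

theorem η_mem (a b : Fin 2) : η (k := k) a b ∈ fil 1 := by
  have h1 : (1 : UU k) ∈ fil 1 := mem_mono one_mem_fil (by omega)
  fin_cases a <;> fin_cases b <;> simp [η, add_mem, h1, E_mem]

/-- an entry of the twist as a linear map -/
noncomputable def φe (a b : Fin 2) : UU k →ₗ[k] UU k :=
  (Matrix.entryLinearMap k (UU k) a b).comp φ.toLinearMap

theorem φe_apply (a b : Fin 2) (u : UU k) : φe a b u = φ u a b := rfl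

theorem φ_mem {q : ℤ} {u : UU k} (hu : u ∈ fil q) (a b : Fin 2) : φ u a b ∈ fil q := by
  have := fil_ind (k := k) (fun q => ⨅ a, ⨅ b, (fil q).comap (φe a b)) ?_ ?_ ?_ q hu
  · simp only [Submodule.mem_iInf, Submodule.mem_comap] at this
    exact this a b
  · simp only [Submodule.mem_iInf, Submodule.mem_comap, φe_apply, map_one]
    intro a b
    rw [Matrix.one_apply]
    split_ifs
    · exact one_mem_fil
    · exact zero_mem _
  · simp only [Submodule.mem_iInf, Submodule.mem_comap, φe_apply]
    intro q u _ h a b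
    exact mem_mono (h a b) (by omega)
  · simp only [Submodule.mem_iInf, Submodule.mem_comap, φe_apply]
    intro q u _ h i a b
    rw [map_mul, φ_E, Matrix.mul_apply]
    exact Submodule.sum_mem _ fun c _ => fil_mul (h a c) (φE_mem i c b)

/-- partial derivatives -/
noncomputable def dd : Fin 4 → (UU k →ₗ[k] UU k) :=
  ![LinearMap.id - φe 0 0, -φe 1 0, -φe 0 1, LinearMap.id - φe 1 1]

/-- correction table -/
def γ : Fin 4 → Fin 4 → Option (Fin 4) :=
  ![![some 0, some 2, none, none], ![some 1, some 3, none, none],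
    ![none, none, some 0, some 2], ![none, none, some 1, some 3]]

theorem dd_mul (m n : Fin 4) (u : UU k) :
    dd m (u * E n) = dd m u * E n + (if m = n then u else 0) -
      (γ m n).elim 0 (fun j => dd j u) := by
  fin_cases m <;> fin_cases n <;>
    simp [dd, γ, φe_apply, φ_E, φE, Matrix.mul_apply, Fin.sum_univ_two, mul_sub, sub_mul] <;> abel

theorem dd_one (m : Fin 4) : dd m (1 : UU k) = 0 := by
  fin_cases m <;> simp [dd, φe_apply]

theorem dd_mem {q : ℤ} {u : UU k} (hu : u ∈ fil q) (m : Fin 4) : dd m u ∈ fil (q - 1) := by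
  have := fil_ind (k := k) (fun q => ⨅ m, (fil (q - 1)).comap (dd m)) ?_ ?_ ?_ q hu
  · simp only [Submodule.mem_iInf, Submodule.mem_comap] at this
    exact this m
  · simp [dd_one]
  · simp only [Submodule.mem_iInf, Submodule.mem_comap]
    intro q u _ h m
    exact mem_mono (h m) (by omega)
  · simp only [Submodule.mem_iInf, Submodule.mem_comap]
    intro q u hu h i m
    rw [dd_mul]
    refine sub_mem (add_mem (mem_mono (mul_E_mem (h m) i) (by omega)) ?_) ?_
    · split_ifs
      · exact mem_mono hu (by omega)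
      · exact zero_mem _
    · cases γ m i with
      | none => exact zero_mem _
      | some j => exact mem_mono (h j) (by omega)

theorem dd_mul_mem {q : ℤ} {u : UU k} (hu : u ∈ fil q) (m n : Fin 4) :
    dd m (u * E n) - dd m u * E n - (if m = n then u else 0) ∈ fil (q - 1) := by
  rw [dd_mul]
  have : ∀ x y z : UU k, x + y - z - x - y = -z := fun x y z => by abel
  rw [this]
  refine neg_mem ?_
  cases γ m n with
  | none => exact zero_mem _
  | some j => exact dd_mem hu j

/-- Euler operator -/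
noncomputable def eul : UU k →ₗ[k] UU k := ∑ i, (LinearMap.mulRight k (E i)).comp (dd i)

theorem eul_apply (u : UU k) : eul u = ∑ i, dd i u * E i := by
  simp [eul]

theorem eul_mem {q : ℤ} {u : UU k} (hu : u ∈ fil q) : eul u - (q : k) • u ∈ fil (q - 1) := by
  refine fil_ind (k := k) (fun q => (fil (q - 1)).comap (eul - (q : k) • LinearMap.id)) ?_ ?_ ?_
    q hu
  · simp [eul_apply, dd_one]
  · intro q u hu h
    have h' : eul u - (q : k) • u ∈ fil (q - 1) := h
    change eul u - ((q + 1 : ℤ) : k) • u ∈ fil (q + 1 - 1)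
    have : eul u - ((q + 1 : ℤ) : k) • u = (eul u - (q : k) • u) - u := by
      push_cast; rw [add_smul, one_smul]; abel
    rw [this]
    exact sub_mem (mem_mono h' (by omega)) (mem_mono hu (by omega))
  · intro q u hu h j
    have h' : eul u - (q : k) • u ∈ fil (q - 1) := h
    change eul (u * E j) - ((q + 1 : ℤ) : k) • (u * E j) ∈ fil (q + 1 - 1)
    have : eul (u * E j) - ((q + 1 : ℤ) : k) • (u * E j) =
        (eul u - (q : k) • u) * E j +
        ∑ i, (dd i (u * E j) - dd i u * E j - (if i = j then u else 0)) * E i +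
        ∑ i, dd i u * (E j * E i - E i * E j) := by
      push_cast
      simp only [eul_apply, sub_mul, mul_sub, Finset.sum_sub_distrib, Finset.sum_mul, mul_assoc,
        ite_mul, zero_mul, Finset.sum_ite_eq', Finset.mem_univ, if_true, add_smul, one_smul,
        smul_mul_assoc]
      abel
    rw [this]
    refine add_mem (add_mem (mem_mono (mul_E_mem h' j) (by omega)) ?_) ?_
    · exact Submodule.sum_mem _ fun i _ => mem_mono (mul_E_mem (dd_mul_mem hu i j) i) (by omega)
    · refine Submodule.sum_mem _ fun i _ => mem_mono (fil_mul (dd_mem hu i) (q := 1) ?_) (by omega)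
      rw [E_comm]
      exact Submodule.sum_mem _ fun m _ => zsmul_mem (E_mem m) _

/-- images of the generators under the shift -/
noncomputable def τE : Fin 4 → (UU k)[X] := ![C (E 0) + X, C (E 1), C (E 2), C (E 3) + X]

theorem τE_six : Six (τE (k := k)) := by
  have h := (E_six (k := k)).map C
  refine ⟨?_, ?_, ?_, ?_, ?_, ?_⟩ <;>
    simp [τE, mul_add, add_mul, X_mul_C, h.r01, h.r02, h.r03, h.r12, h.r13, h.r23] <;>
    abel

/-- the shift -/
noncomputable def τ : UU k →ₐ[k] (UU k)[X] := lift τE τE_six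

theorem τ_E (i : Fin 4) : τ (E i : UU k) = τE i := lift_E _ _ _

theorem τ_zero (u : UU k) : (τ u).coeff 0 = u := by
  induction u using U_ind with
  | h0 c => rw [AlgHom.commutes]; simp
  | h1 i => rw [τ_E]; fin_cases i <;> simp [τE]
  | hm a b ha hb => rw [map_mul, mul_coeff_zero, ha, hb]
  | ha a b ha hb => rw [map_add, coeff_add, ha, hb]

/-- coefficients of the shift -/
noncomputable def τc (m : ℕ) : UU k →ₗ[k] UU k where
  toFun u := (τ u).coeff m
  map_add' u v := by simp
  map_smul' c u := by simp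

theorem τ_mem {q : ℤ} {u : UU k} (hu : u ∈ fil q) (m : ℕ) : (τ u).coeff m ∈ fil (q - m) := by
  have := fil_ind (k := k) (fun q => ⨅ m : ℕ, (fil (q - m)).comap (τc m)) ?_ ?_ ?_ q hu
  · simp only [Submodule.mem_iInf, Submodule.mem_comap] at this
    exact this m
  · simp only [Submodule.mem_iInf, Submodule.mem_comap]
    intro m
    change (τ 1).coeff m ∈ _
    rw [map_one, coeff_one]
    split_ifs with h
    · subst h; simpa using one_mem_fil
    · exact zero_mem _
  · simp only [Submodule.mem_iInf, Submodule.mem_comap]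
    intro q u _ h m
    exact mem_mono (h m) (by omega)
  · simp only [Submodule.mem_iInf, Submodule.mem_comap]
    intro q u _ h i m
    change (τ (u * E i)).coeff m ∈ _
    have h' : ∀ m : ℕ, (τ u).coeff m ∈ fil (q - m) := h
    have h1 : (τ u * C (E i)).coeff m ∈ fil (q + 1 - m) := by
      rw [coeff_mul_C]; exact mem_mono (mul_E_mem (h' m) i) (by omega)
    have h2 : (τ u * X).coeff m ∈ fil (q + 1 - m) := by
      cases m with
      | zero => simp
      | succ m => rw [coeff_mul_X]; exact mem_mono (h' m) (by push_cast; omega)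
    rw [map_mul, τ_E]
    fin_cases i
    · simpa [τE, mul_add] using add_mem h1 h2
    · simpa [τE] using h1
    · simpa [τE] using h1
    · simpa [τE, mul_add] using add_mem h1 h2

theorem τ_η (y : Fin 2 → UU k) (m : ℕ) (c : Fin 2) :
    (τ (act (η (k := k)) y c)).coeff (m + 1) =
      act (η (k := k)) (fun c => (τ (y c)).coeff (m + 1)) c + (τ (y c)).coeff m := by
  fin_cases c <;>
    simp [act, η, Fin.sum_univ_two, τ_E, τE, add_mul, coeff_X_mul] <;> abel

theorem act_η_mem {q : ℤ} {y : Fin 2 → UU k} (hy : ∀ c, y c ∈ fil q) (c : Fin 2) :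
    act (η (k := k)) y c ∈ fil (q + 1) :=
  Submodule.sum_mem _ fun b _ => mem_mono (fil_mul (η_mem c b) (hy b)) (by omega)

theorem strict_step {q : ℤ} {y : Fin 2 → UU k} (hy : ∀ c, y c ∈ fil q)
    (h : ∀ c, act (η (k := k)) y c ∈ fil q) (c : Fin 2) : y c ∈ fil (q - 1) := by
  have : ∀ j m : ℕ, q < m + j → ∀ c, (τ (y c)).coeff m ∈ fil (q - m - 1) := by
    intro j
    induction j with
    | zero =>
      intro m hm c
      have := τ_mem (hy c) m
      rw [fil_neg (by omega), Submodule.mem_bot] at this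
      rw [this]; exact zero_mem _
    | succ j ih =>
      intro m hm c
      have h1 := τ_mem (h c) (m + 1)
      rw [τ_η] at h1
      have h2 := act_η_mem (ih (m + 1) (by push_cast at hm ⊢; omega)) c
      have h3 := sub_mem (mem_mono h1 (q := q - m - 1) (by push_cast; omega))
        (mem_mono h2 (by push_cast; omega))
      simpa using h3
  simpa [τ_zero] using this (q.toNat + 1) 0 (by push_cast; omega) c

theorem strict {p : ℤ} {y : Fin 2 → UU k} (h : ∀ c, act (η (k := k)) y c ∈ fil (p + 1)) (c : Fin 2) :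
    y c ∈ fil p := by
  have : ∀ n : ℕ, (∀ c, y c ∈ fil (p + n)) → ∀ c, y c ∈ fil p := by
    intro n
    induction n with
    | zero => simp
    | succ n ih =>
      intro hy
      refine ih fun c => mem_mono (strict_step hy (fun c => mem_mono (h c) ?_) c) ?_ <;>
        push_cast <;> omega
  obtain ⟨q₀, h₀⟩ := fil_exh (y 0)
  obtain ⟨q₁, h₁⟩ := fil_exh (y 1)
  refine this (max q₀ q₁ - p).toNat (fun c => ?_) c
  fin_cases c
  · exact mem_mono h₀ (by omega)
  · exact mem_mono h₁ (by omega)

/-- the data for the trivial extension -/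
noncomputable def dat (k : Type u) [Field k] : Dat k (UU k) (Fin 2) where
  φ := φ
  η := η
  comm := η_comm
  inj y hy := by
    funext c
    have := strict (p := -1) (y := y) (fun c => by rw [hy]; exact zero_mem _) c
    rwa [fil_neg (by omega), Submodule.mem_bot] at this

end Vale.Agent.P176
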