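import Vale.Agent.P176.CE

/-!
The simple modules of homogeneous polynomials in two variables.
-/

namespace Vale.Agent.P176

universe u

open MvPolynomial CategoryTheory

variable {k : Type u} [Field k]

theorem pderiv_swap (p : MvPolynomial (Fin 2) k) :
    pderiv 1 (pderiv 0 p) = pderiv 0 (pderiv 1 p) := by
  induction p using MvPolynomial.induction_on with
  | C a => simp
  | add p q hp hq => simp [hp, hq]
  | mul_X p i hp =>
    fin_cases i <;> simp [Derivation.leibniz, hp] <;> ring

/-- polynomials in two variables -/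
def PP (k : Type u) [Field k] : Type u := MvPolynomial (Fin 2) k

noncomputable instance : AddCommGroup (PP k) :=
  inferInstanceAs (AddCommGroup (MvPolynomial (Fin 2) k))

noncomputable instance : Module k (PP k) := inferInstanceAs (Module k (MvPolynomial (Fin 2) k))

/-- the operators `x_i ∂_j` -/
noncomputable def xd (i j : Fin 2) : Module.End k (MvPolynomial (Fin 2) k) :=
  (LinearMap.mulLeft k (X i)).comp (pderiv j).toLinearMap

theorem xd_apply (i j : Fin 2) (p : MvPolynomial (Fin 2) k) : xd i j p = X i * pderiv j p := rfl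

/-- images of the generators -/
noncomputable def xE : Fin 4 → Module.End k (MvPolynomial (Fin 2) k) :=
  ![xd 0 0, xd 0 1, xd 1 0, xd 1 1]

theorem xE_six : Six (xE (k := k)) := by
  refine ⟨?_, ?_, ?_, ?_, ?_, ?_⟩ <;> refine LinearMap.ext fun p => ?_ <;>
    simp [xE, xd_apply, Derivation.leibniz, pderiv_swap] <;> ring

/-- the action on polynomials -/
noncomputable def actP : UU k →ₐ[k] Module.End k (MvPolynomial (Fin 2) k) := lift xE xE_six

theorem actP_E (i : Fin 4) : actP (E i : UU k) = xE i := lift_E _ _ _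

instance : Nontrivial (UU k) := (actP (k := k)).toRingHom.domain_nontrivial

noncomputable instance : Module (UU k) (PP k) :=
  Module.compHom (MvPolynomial (Fin 2) k) (actP (k := k)).toRingHom

/-- the underlying polynomial -/
def PP.val (p : PP k) : MvPolynomial (Fin 2) k := p

theorem val_smul (u : UU k) (p : PP k) : (u • p).val = actP u p.val := rfl

instance : IsScalarTower k (UU k) (PP k) where
  smul_assoc c u p := by
    change actP (c • u) p.val = c • actP u p.val
    rw [map_smul]; rfl

/-- the Euler operator -/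
noncomputable def EE (p : MvPolynomial (Fin 2) k) : MvPolynomial (Fin 2) k :=
  X 0 * pderiv 0 p + X 1 * pderiv 1 p

theorem EE_act (u : UU k) (p : MvPolynomial (Fin 2) k) : EE (actP u p) = actP u (EE p) := by
  induction u using U_ind generalizing p with
  | h0 c => simp [EE, Algebra.algebraMap_eq_smul_one]
  | h1 i =>
    rw [actP_E]
    fin_cases i <;> simp [EE, xE, xd_apply, Derivation.leibniz, pderiv_swap] <;> ring
  | hm a b ha hb => simp only [map_mul, Module.End.mul_apply, ha, hb]
  | ha a b ha hb =>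
    simp only [map_add, LinearMap.add_apply, ← ha, ← hb]
    simp only [EE, map_add]; ring

/-- the eigenspaces of the Euler operator -/
noncomputable def LL (k : Type u) [Field k] (n : ℕ) : Submodule (UU k) (PP k) where
  carrier := {p | EE p.val = ((n : k) - 1) • p.val}
  add_mem' := by
    intro p q hp hq
    change EE (p.val + q.val) = _ • (p.val + q.val)
    rw [smul_add, ← hp, ← hq]
    simp only [EE, map_add]; ring
  zero_mem' := by
    change EE 0 = _ • (0 : MvPolynomial (Fin 2) k)
    simp [EE]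
  smul_mem' := by
    intro u p hp
    change EE (actP u p.val) = ((n : k) - 1) • actP u p.val
    rw [EE_act, hp, map_smul]

theorem coeff_EE (p : MvPolynomial (Fin 2) k) (m : Fin 2 →₀ ℕ) :
    coeff m (EE p) = ((m 0 + m 1 : ℕ) : k) * coeff m p := by
  induction p using MvPolynomial.induction_on' with
  | monomial s a =>
    rw [EE, X_mul_pderiv_monomial, X_mul_pderiv_monomial, ← add_smul, coeff_smul, coeff_monomial]
    split_ifs with h
    · subst h; simp
    · simp
  | add p q hp hq =>
    have : EE (p + q) = EE p + EE q := by simp only [EE, map_add]; ring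
    rw [this, coeff_add, coeff_add, hp, hq, mul_add]

theorem deg_of_mem [CharZero k] {n : ℕ} {p : PP k} (hp : p ∈ LL k n) {m : Fin 2 →₀ ℕ}
    (hm : coeff m p.val ≠ 0) : m 0 + m 1 + 1 = n := by
  have h : EE p.val = ((n : k) - 1) • p.val := hp
  have := congrArg (coeff m) h
  rw [coeff_EE, coeff_smul, smul_eq_mul] at this
  have h2 := mul_right_cancel₀ hm this
  rw [eq_sub_iff_add_eq] at h2
  exact_mod_cast h2

theorem LL_zero [CharZero k] : Subsingleton (LL k 0) := by
  have : ∀ p : LL k 0, p = 0 := by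
    intro p
    apply Subtype.ext
    change p.1.val = 0
    ext m
    by_contra h
    exact absurd (deg_of_mem p.2 h) (by omega)
  exact ⟨fun p q => by rw [this p, this q]⟩

theorem LL_fin [CharZero k] (n : ℕ) : Module.Finite k (LL k n) := by
  let f : LL k n →ₗ[k] restrictTotalDegree (Fin 2) k n :=
    { toFun := fun p => ⟨p.1.val, by
        rw [mem_restrictTotalDegree]
        refine Finset.sup_le fun m hm => ?_
        have := deg_of_mem p.2 (mem_support_iff.1 hm)
        rw [Finsupp.sum_fintype _ _ (fun _ => rfl), Fin.sum_univ_two]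
        omega⟩
      map_add' := fun _ _ => rfl
      map_smul' := fun _ _ => rfl }
  exact Module.Finite.of_injective f fun p q h =>
    Subtype.ext (congrArg (fun z : restrictTotalDegree (Fin 2) k n => z.1) h)

theorem LL_nontrivial (n : ℕ) : Nontrivial (LL k (n + 1)) := by
  refine ⟨⟨(X 0 ^ n : MvPolynomial (Fin 2) k), ?_⟩, 0, fun h => ?_⟩
  · change EE (X 0 ^ n) = _ • (X 0 ^ n : MvPolynomial (Fin 2) k)
    rw [X_pow_eq_monomial, EE, X_mul_pderiv_monomial, X_mul_pderiv_monomial]
    simp [Nat.cast_smul_eq_nsmul]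
  · have : (X 0 ^ n : MvPolynomial (Fin 2) k) = 0 := congrArg Subtype.val h
    exact pow_ne_zero n (X_ne_zero 0) this

/-- divergence -/
noncomputable def dv (w : Fin 2 → PP k) : MvPolynomial (Fin 2) k :=
  pderiv 0 (w 0).val + pderiv 1 (w 1).val

theorem val_add (p q : PP k) : (p + q).val = p.val + q.val := rfl

theorem act_val (N : Matrix (Fin 2) (Fin 2) (UU k)) (w : Fin 2 → PP k) (c : Fin 2) :
    (act N w c).val = actP (N c 0) (w 0).val + actP (N c 1) (w 1).val := by
  rw [act, Fin.sum_univ_two]; rfl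

theorem dv_add (w w' : Fin 2 → PP k) : dv (w + w') = dv w + dv w' := by
  simp only [dv, Pi.add_apply, val_add, map_add]; ring

theorem dv_act (u : UU k) (w : Fin 2 → PP k) : dv (act (φ u) w) = actP u (dv w) := by
  induction u using U_ind generalizing w with
  | h0 c => simp [dv, act_val, Algebra.algebraMap_eq_smul_one]
  | h1 i =>
    rw [φ_E, actP_E]
    fin_cases i <;>
      simp [dv, act_val, φE, actP_E, xE, xd_apply, Derivation.leibniz, pderiv_swap] <;> ring
  | hm a b ha hb => rw [map_mul, act_mul, ha, hb, map_mul, Module.End.mul_apply]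
  | ha a b ha hb => rw [map_add, add_act, dv_add, ha, hb, map_add, LinearMap.add_apply]

theorem dv_η (w : Fin 2 → PP k) : dv (act (η (k := k)) w) = 0 := by
  simp [dv, act_val, η, actP_E, xE, xd_apply, Derivation.leibniz, pderiv_swap]
  ring

theorem η_val (w : Fin 2 → PP k) (c : Fin 2) :
    (act (η (k := k)) w c).val = EE (w c).val + (w c).val - X c * dv w := by
  fin_cases c <;> simp [dv, act_val, η, actP_E, xE, xd_apply, EE] <;> ring

theorem EE_dv (w : Fin 2 → PP k) :
    EE (dv w) = pderiv 0 (EE (w 0).val) + pderiv 1 (EE (w 1).val) - dv w := by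
  simp [dv, EE, Derivation.leibniz, pderiv_swap]
  ring

/-- divergence on the eigenspaces -/
noncomputable def κ (n : ℕ) : (Fin 2 → LL k (n + 1)) →+ LL k n where
  toFun l := ⟨dv fun c => (l c).1, by
    have h0 : EE (l 0).1.val = _ := (l 0).2
    have h1 : EE (l 1).1.val = _ := (l 1).2
    change EE (dv _) = _ • dv _
    rw [EE_dv, h0, h1]
    simp [dv, sub_smul]
    abel⟩
  map_zero' := Subtype.ext (by
    change pderiv 0 (0 : MvPolynomial (Fin 2) k) + pderiv 1 0 = (0 : MvPolynomial (Fin 2) k)
    simp)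
  map_add' l l' := Subtype.ext (dv_add (fun c => (l c).1) fun c => (l' c).1)

theorem act_coe {n : ℕ} (N : Matrix (Fin 2) (Fin 2) (UU k)) (l : Fin 2 → LL k n) :
    (fun c => (act N l c).1) = act N fun c => (l c).1 := map_act (LL k n).subtype N l

/-- the underlying polynomial -/
def vl {n : ℕ} (x : LL k n) : MvPolynomial (Fin 2) k := x.1.val

theorem vl_ext {n : ℕ} {x y : LL k n} (h : vl x = vl y) : x = y := Subtype.ext h

theorem vl_smul {n : ℕ} (c : k) (x : LL k n) : vl (c • x) = c • vl x := rfl

theorem vl_usmul {n : ℕ} (u : UU k) (x : LL k n) : vl (u • x) = actP u (vl x) := rfl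

theorem vl_zero {n : ℕ} : vl (0 : LL k n) = 0 := rfl

theorem vl_κ (n : ℕ) (l : Fin 2 → LL k (n + 1)) : vl (κ n l) = dv fun c => (l c).1 := rfl

theorem vl_κ' (n : ℕ) (l : Fin 2 → LL k (n + 1)) :
    vl (κ n l) = pderiv 0 (vl (l 0)) + pderiv 1 (vl (l 1)) := rfl

theorem EE_vl {n : ℕ} (x : LL k n) : EE (vl x) = ((n : k) - 1) • vl x := x.2

theorem κ_eq (n : ℕ) (u : UU k) (l : Fin 2 → LL k (n + 1)) : κ n (act (φ u) l) = u • κ n l := by
  apply vl_ext
  rw [vl_usmul, vl_κ, vl_κ, act_coe, dv_act]

theorem η_add {n : ℕ} (l : Fin 2 → LL k (n + 1)) (c : Fin 2) :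
    vl (act (η (k := k)) l c) = ((n : k) + 1) • vl (l c) - X c * vl (κ n l) := by
  have h0 := EE_vl (l c)
  have h1 : vl (act (η (k := k)) l c) = EE (vl (l c)) + vl (l c) - X c * vl (κ n l) := by
    rw [vl, congrFun (act_coe η l) c, η_val]; rfl
  rw [h1, h0]
  simp [add_smul]

/-- the embedding -/
noncomputable def io (n : ℕ) (x : LL k n) (c : Fin 2) : LL k (n + 1) :=
  ⟨(X c * vl x : MvPolynomial (Fin 2) k), by
    have h0 := EE_vl x
    change EE (X c * vl x) = (((n + 1 : ℕ) : k) - 1) • (X c * vl x)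
    have : EE (X c * vl x) = X c * EE (vl x) + X c * vl x := by
      fin_cases c <;> simp [EE, Derivation.leibniz] <;> ring
    rw [this, h0]
    simp [sub_smul, mul_sub]⟩

theorem vl_io (n : ℕ) (x : LL k n) (c : Fin 2) : vl (io n x c) = X c * vl x := rfl

theorem κ_io (n : ℕ) (x : LL k n) : vl (κ n (io n x)) = ((n : k) + 1) • vl x := by
  have h0 := EE_vl x
  rw [vl_κ', vl_io, vl_io]
  have : pderiv 0 (X 0 * vl x) + pderiv 1 (X 1 * vl x) = EE (vl x) + vl x + vl x := by
    simp [EE, Derivation.leibniz]; ring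
  rw [this, h0]
  simp [sub_smul, add_smul]

/-- kernel and cokernel of the Casimir matrix -/
noncomputable def kap [CharZero k] (n : ℕ) : Kap (dat k) (LL k n) (LL k (n + 1)) :=
  have hn : (n : k) + 1 ≠ 0 := Nat.cast_add_one_ne_zero n
  have hs : ∀ x : LL k n, κ n (io n (((n : k) + 1)⁻¹ • x)) = x := fun x => by
    apply vl_ext
    rw [κ_io, vl_smul, smul_inv_smul₀ hn]
  { κ₀ := κ n
    κ₁ := κ n
    κ₀_eq := κ_eq n
    κ₀_η := fun l => vl_ext (by
      rw [vl_κ, act_coe, vl_zero]
      exact dv_η _)
    κ₀_ker := fun l hl => ⟨((n : k) + 1)⁻¹ • l, by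
      funext c
      apply vl_ext
      have h1 : κ n (((n : k) + 1)⁻¹ • l) = ((n : k) + 1)⁻¹ • κ n l := by
        apply vl_ext
        simp only [vl_κ', vl_smul, Pi.smul_apply, Derivation.map_smul, smul_add]
      refine Eq.trans ?_ (η_add _ c).symm
      rw [h1, hl, smul_zero, vl_zero, mul_zero, sub_zero, Pi.smul_apply, vl_smul,
        smul_inv_smul₀ hn]⟩
    κ₀_surj := fun x => ⟨_, hs x⟩
    κ₁_eq := fun u l _ => κ_eq n u l
    κ₁_inj := fun l h1 h2 => by
      funext c
      have h3 := η_add l c
      have h4 : act η l = 0 := h1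
      rw [h4, h2, Pi.zero_apply, vl_zero, vl_zero, mul_zero, sub_zero] at h3
      exact vl_ext ((smul_eq_zero.1 h3.symm).resolve_left hn)
    κ₁_surj := fun x => ⟨_, by
      funext c
      apply vl_ext
      refine Eq.trans (η_add _ c) ?_
      rw [κ_io, vl_io, mul_smul_comm, sub_self, Pi.zero_apply, vl_zero], hs x⟩ }

theorem main (k : Type u) [Field k] [CharZero k] :
    ∃ (A : Type u) (_ : Ring A) (_ : Algebra k A), FiniteDimensional k A ∧
      ∀ n : ℕ, ∃ M : ModuleCat.{u} A, Module.Finite A M ∧
        projectiveDimension M = ((4 + 2 * n : ℕ) : WithBot ℕ∞) := by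
  refine criterion (dat k) (lev k) (by norm_num) fun _ =>
    ⟨fun n => ModuleCat.of (UU k) (LL k n), LL_zero, fun n _ => ⟨?_, ⟨kap n⟩⟩⟩
  have := LL_fin (k := k) (n + 1)
  have := LL_nontrivial (k := k) n
  exact ⟨res (Module.finBasis k (LL k (n + 1))) ⟨0, Module.finrank_pos⟩⟩

end Vale.Agent.P176
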