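import Mathlib

/-!
Window algebras: subalgebras of matrices over a ring whose entries lie in prescribed subspaces,
and their modules cut out by families of subgroups.
-/

open CategoryTheory
open Matrix.Module

namespace Vale.Agent.P176

universe u

section Hom

variable {C : Type*} [Category C] [Abelian C]

/-- existence of a short exact sequence -/
def SE (X Y Z : C) : Prop :=
  ∃ (f : X ⟶ Y) (g : Y ⟶ Z) (w : f ≫ g = 0), (ShortComplex.mk f g w).ShortExact

/-- projective dimension less than `n` -/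
abbrev LT' (X : C) (n : ℕ) : Prop := HasProjectiveDimensionLT X n

theorem LT'.mono {X : C} {n m : ℕ} (h : LT' X n) (hnm : n ≤ m) : LT' X m :=
  haveI := h; hasProjectiveDimensionLT_of_ge X n m hnm

theorem LT'.proj {X : C} (h : Projective X) {m : ℕ} (hm : 1 ≤ m) : LT' X m :=
  LT'.mono (inferInstance : HasProjectiveDimensionLT X 1) hm

theorem SE.lt₁ {X Y Z : C} (h : SE X Y Z) {n : ℕ} (h₂ : LT' Y n) (h₃ : LT' Z (n + 1)) :
    LT' X n := by
  obtain ⟨f, g, w, hS⟩ := h
  exact hS.hasProjectiveDimensionLT_X₁ n h₂ h₃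

theorem SE.lt₂ {X Y Z : C} (h : SE X Y Z) {n : ℕ} (h₁ : LT' X n) (h₃ : LT' Z n) :
    LT' Y n := by
  obtain ⟨f, g, w, hS⟩ := h
  exact hS.hasProjectiveDimensionLT_X₂ n h₁ h₃

theorem SE.lt₃ {X Y Z : C} (h : SE X Y Z) {n : ℕ} (h₁ : LT' X n) (h₂ : LT' Y (n + 1)) :
    LT' Z (n + 1) := by
  obtain ⟨f, g, w, hS⟩ := h
  exact hS.hasProjectiveDimensionLT_X₃ n h₁ h₂

/-- The homological data produced by one step of the construction. -/
structure Step (l : ℕ) (Y' Y : C) where
  P : ℕ → C
  B : ℕ → C
  J : C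
  Z : C
  proj : ∀ i, Projective (P i)
  s₁ : SE J (P 0) Y
  s₂ : SE (B 0) J Y'
  s₃ : SE Z (P 1) (B 0)
  s₄ : SE (B 1) Z Y'
  s₅ : ∀ i, 1 ≤ i → SE (B (i + 1)) (P (i + 1)) (B i)
  top : LT' (B l) 0
  nonproj : ¬ Projective (B (l - 2))

theorem Step.ltB {l : ℕ} {Y' Y : C} (S : Step l Y' Y) :
    ∀ j i, 1 ≤ i → i + j = l → LT' (S.B i) j := by
  intro j
  induction j with
  | zero => intro i _ h; obtain rfl : i = l := by omega
            exact S.top
  | succ j ih =>
    intro i hi h
    exact (S.s₅ i hi).lt₃ (ih (i + 1) (by omega) (by omega)) (LT'.proj (S.proj _) (by omega))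

theorem Step.notB {l : ℕ} {Y' Y : C} (S : Step l Y' Y) :
    ∀ j i, 1 ≤ i → i + j + 2 = l → ¬ LT' (S.B i) (j + 1) := by
  intro j
  induction j with
  | zero =>
    intro i _ h hl
    obtain rfl : i = l - 2 := by omega
    exact S.nonproj (projective_iff_hasProjectiveDimensionLT_one.2 hl)
  | succ j ih =>
    intro i hi h hl
    exact ih (i + 1) (by omega) (by omega)
      ((S.s₅ i hi).lt₁ (LT'.proj (S.proj _) (by omega)) hl)

theorem Step.base {l : ℕ} {Y' Y : C} (S : Step l Y' Y) (hl : 3 ≤ l) (h0 : LT' Y' 0) :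
    LT' Y (l + 1) ∧ ¬ LT' Y l := by
  obtain ⟨m, rfl⟩ : ∃ m, l = m + 3 := ⟨l - 3, by omega⟩
  have hB := S.ltB (m + 2) 1 le_rfl (by omega)
  constructor
  · have hZ := S.s₄.lt₂ hB (h0.mono (by omega))
    have hB0 := S.s₃.lt₃ hZ (LT'.proj (S.proj _) (by omega))
    have hJ := S.s₂.lt₂ hB0 (h0.mono (by omega))
    exact S.s₁.lt₃ hJ (LT'.proj (S.proj _) (by omega))
  · intro h
    have hJ := S.s₁.lt₁ (n := m + 2) (LT'.proj (S.proj _) (by omega)) h
    have hB0 := S.s₂.lt₁ hJ (h0.mono (by omega))
    have hZ := S.s₃.lt₁ (n := m + 1) (LT'.proj (S.proj _) (by omega)) hB0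
    have hB1 := S.s₄.lt₁ hZ (h0.mono (by omega))
    exact S.notB m 1 le_rfl (by omega) hB1

theorem Step.step {l : ℕ} {Y' Y : C} (S : Step l Y' Y) (hl : 3 ≤ l) {p : ℕ} (hp : l ≤ p)
    (h1 : LT' Y' (p + 1)) (h2 : ¬ LT' Y' p) :
    LT' Y (p + 2 + 1) ∧ ¬ LT' Y (p + 2) := by
  have hB := S.ltB (l - 1) 1 le_rfl (by omega)
  constructor
  · have hZ := S.s₄.lt₂ (hB.mono (by omega)) h1
    have hB0 := S.s₃.lt₃ hZ (LT'.proj (S.proj _) (by omega))
    have hJ := S.s₂.lt₂ hB0 (h1.mono (by omega))
    exact S.s₁.lt₃ hJ (LT'.proj (S.proj _) (by omega))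
  · intro h
    have hJ := S.s₁.lt₁ (n := p + 1) (LT'.proj (S.proj _) (by omega)) h
    have hB0 := S.s₂.lt₁ hJ (h1.mono (by omega))
    have hZ := S.s₃.lt₁ (n := p) (LT'.proj (S.proj _) (by omega)) hB0
    obtain ⟨q, rfl⟩ : ∃ q, p = q + 1 := ⟨p - 1, by omega⟩
    exact h2 (S.s₄.lt₃ (hB.mono (by omega)) hZ)

theorem chain {l : ℕ} (hl : 3 ≤ l) (Y : ℕ → C) (h0 : LT' (Y 0) 0) (N : ℕ)
    (S : ∀ n, n ≤ N → Nonempty (Step l (Y n) (Y (n + 1)))) :
    ∀ n, n ≤ N → LT' (Y (n + 1)) (l + 2 * n + 1) ∧ ¬ LT' (Y (n + 1)) (l + 2 * n) := by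
  intro n
  induction n with
  | zero => intro h; obtain ⟨S0⟩ := S 0 h; simpa using S0.base hl h0
  | succ n ih =>
    intro h
    obtain ⟨S0⟩ := S (n + 1) h
    have := S0.step hl (p := l + 2 * n) (by omega) (ih (by omega)).1 (ih (by omega)).2
    simpa [mul_add, add_assoc] using this

end Hom

variable {k : Type u} [Field k] {R : Type u} [Ring R] [Algebra k R]
  {I : Type} [Fintype I] [DecidableEq I]

/-- window data -/
structure Win (k : Type u) [Field k] (R : Type u) [Ring R] [Algebra k R] (I : Type) where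
  F : I → I → Submodule k R
  one_mem : ∀ a, (1 : R) ∈ F a a
  mul_mem : ∀ {a b c : I} {x y : R}, x ∈ F a b → y ∈ F b c → x * y ∈ F a c
  fin : ∀ a b, FiniteDimensional k (F a b)

/-- the window algebra -/
def Win.A (W : Win k R I) : Subalgebra k (Matrix I I R) where
  carrier := {m | ∀ a b, m a b ∈ W.F a b}
  mul_mem' := by
    intro x y hx hy a c
    rw [Matrix.mul_apply]
    exact Submodule.sum_mem _ fun b _ => W.mul_mem (hx a b) (hy b c)
  add_mem' := fun hx hy a b => Submodule.add_mem _ (hx a b) (hy a b)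
  algebraMap_mem' := by
    intro r a b
    rw [Matrix.algebraMap_matrix_apply]
    split_ifs with h
    · subst h
      rw [Algebra.algebraMap_eq_smul_one]
      exact Submodule.smul_mem _ _ (W.one_mem a)
    · exact Submodule.zero_mem _

theorem Win.mem_A {W : Win k R I} {m : Matrix I I R} : m ∈ W.A ↔ ∀ a b, m a b ∈ W.F a b :=
  Iff.rfl

theorem Win.finite (W : Win k R I) : FiniteDimensional k W.A := by
  have := W.fin
  let f : W.A →ₗ[k] (∀ a b, W.F a b) :=
    { toFun := fun m a b => ⟨m.1 a b, m.2 a b⟩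
      map_add' := fun _ _ => rfl
      map_smul' := fun _ _ => rfl }
  refine Module.Finite.of_injective f ?_
  intro m m' h
  ext a b
  exact congrArg Subtype.val (congrFun (congrFun h a) b)

/-- a family of subgroups compatible with the window -/
structure Fam (W : Win k R I) (M : Type u) [AddCommGroup M] [Module R M] where
  S : I → AddSubgroup M
  smul_mem : ∀ {a b : I} {r : R} {x : M}, r ∈ W.F a b → x ∈ S b → r • x ∈ S a

variable {W : Win k R I} {M : Type u} [AddCommGroup M] [Module R M]
  {M' : Type u} [AddCommGroup M'] [Module R M']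

instance instVecModule : Module W.A (I → M) := Subalgebra.moduleLeft W.A

instance instVecSMul : SMul W.A (I → M) := (instVecModule (W := W) (M := M)).toSMul

theorem A_smul_apply (m : W.A) (v : I → M) (a : I) : (m • v) a = ∑ b, m.1 a b • v b := rfl

/-- the module of a family -/
def Fam.mod (G : Fam W M) : Submodule W.A (I → M) where
  carrier := {v | ∀ a, v a ∈ G.S a}
  add_mem' := fun hx hy a => AddSubgroup.add_mem _ (hx a) (hy a)
  zero_mem' := fun a => AddSubgroup.zero_mem _
  smul_mem' := by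
    intro m v hv a
    rw [A_smul_apply]
    exact AddSubgroup.sum_mem _ fun b _ => G.smul_mem (m.2 a b) (hv b)

instance (G : Fam W M) : Module W.A G.mod := Submodule.module _

instance (G : Fam W M) : SMul W.A G.mod := (inferInstance : Module W.A G.mod).toSMul

theorem Fam.mem_mod {G : Fam W M} {v : I → M} : v ∈ G.mod ↔ ∀ a, v a ∈ G.S a := Iff.rfl

/-- the object of the module category -/
abbrev Fam.obj (G : Fam W M) : ModuleCat.{u} W.A := ModuleCat.of W.A G.mod

/-- the full family -/
def Fam.top (W : Win k R I) (M : Type u) [AddCommGroup M] [Module R M] : Fam W M where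
  S := fun _ => ⊤
  smul_mem := fun _ _ => trivial

/-- compatibility of a function with two families -/
structure Compat (G : Fam W M) (G' : Fam W M') (g : M → M') : Prop where
  mem : ∀ a, ∀ x ∈ G.S a, g x ∈ G'.S a
  add : ∀ a, ∀ x ∈ G.S a, ∀ y ∈ G.S a, g (x + y) = g x + g y
  smul : ∀ a b, ∀ r ∈ W.F a b, ∀ x ∈ G.S b, g (r • x) = r • g x

omit [Fintype I] [DecidableEq I] in
theorem Compat.zero {G : Fam W M} {G' : Fam W M'} {g : M → M'} (h : Compat G G' g) (a : I) :
    g 0 = 0 := by
  have := h.add a 0 (G.S a).zero_mem 0 (G.S a).zero_mem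
  simpa using this

omit [Fintype I] [DecidableEq I] in
theorem Compat.sum {G : Fam W M} {G' : Fam W M'} {g : M → M'} (h : Compat G G' g) (a : I)
    {T : Type*} (s : Finset T) (x : T → M) (hx : ∀ t, x t ∈ G.S a) :
    g (∑ t ∈ s, x t) = ∑ t ∈ s, g (x t) := by
  classical
  induction s using Finset.induction_on with
  | empty => simpa using h.zero a
  | insert t s ht ih =>
    rw [Finset.sum_insert ht, Finset.sum_insert ht, h.add a _ (hx t) _
      (AddSubgroup.sum_mem _ fun t _ => hx t), ih]

/-- the induced linear map -/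
def Compat.map {G : Fam W M} {G' : Fam W M'} {g : M → M'} (h : Compat G G' g) :
    G.mod →ₗ[W.A] G'.mod where
  toFun v := ⟨fun a => g (v.1 a), fun a => h.mem a _ (v.2 a)⟩
  map_add' v w := by
    ext a
    exact h.add a _ (v.2 a) _ (w.2 a)
  map_smul' m v := by
    ext a
    change g (∑ b, m.1 a b • v.1 b) = ∑ b, m.1 a b • g (v.1 b)
    rw [h.sum a _ _ fun b => G.smul_mem (m.2 a b) (v.2 b)]
    exact Finset.sum_congr rfl fun b _ => h.smul a b _ (m.2 a b) _ (v.2 b)

theorem Compat.map_surj {G : Fam W M} {G' : Fam W M'} {g : M → M'} (h : Compat G G' g)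
    (surj : ∀ a, ∀ z ∈ G'.S a, ∃ y ∈ G.S a, g y = z) : Function.Surjective h.map := by
  intro z
  choose y hy hy' using fun a => surj a (z.1 a) (z.2 a)
  exact ⟨⟨y, hy⟩, Subtype.ext (funext hy')⟩

theorem ses (G₁ G₂ : Fam W M) (G₃ : Fam W M') {g : M → M'} (h : Compat G₂ G₃ g)
    (ex : ∀ a x, x ∈ G₁.S a ↔ x ∈ G₂.S a ∧ g x = 0)
    (surj : ∀ a, ∀ z ∈ G₃.S a, ∃ y ∈ G₂.S a, g y = z) : SE G₁.obj G₂.obj G₃.obj := by
  have hle : G₁.mod ≤ G₂.mod := fun v hv a => ((ex a _).1 (hv a)).1
  refine ⟨ModuleCat.ofHom (Submodule.inclusion hle), ModuleCat.ofHom h.map, ?_, ?_⟩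
  · ext v a
    exact ((ex a _).1 (v.2 a)).2
  · refine ModuleCat.shortComplex_shortExact _ ?_ ?_ ?_
    · intro v
      constructor
      · intro hv
        refine ⟨⟨v.1, fun a => (ex a _).2 ⟨v.2 a, ?_⟩⟩, rfl⟩
        exact congrFun (congrArg Subtype.val hv) a
      · rintro ⟨w, rfl⟩
        ext a
        exact ((ex a _).1 (w.2 a)).2
    · exact Submodule.inclusion_injective hle
    · exact h.map_surj surj

theorem Fam.lt_zero (G : Fam W M) (h : ∀ a, ∀ x ∈ G.S a, x = 0) : LT' G.obj 0 := by
  refine Limits.IsZero.hasProjectiveDimensionLT_zero ?_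
  have : Subsingleton G.mod := ⟨fun v w => by
    ext a
    rw [h a _ (v.2 a), h a _ (w.2 a)]⟩
  exact ModuleCat.isZero_of_subsingleton _

section Free

variable {T : Type} [Fintype T] [DecidableEq T]

/-- the family of a free module -/
def Fam.free (W : Win k R I) (gd : T → I) (act : T → Prop) : Fam W (T → R) where
  S a :=
    { carrier := {x | ∀ t, (act t → x t ∈ W.F a (gd t)) ∧ (¬ act t → x t = 0)}
      add_mem' := fun hx hy t => ⟨fun h => Submodule.add_mem _ ((hx t).1 h) ((hy t).1 h),
        fun h => by simp [(hx t).2 h, (hy t).2 h]⟩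
      zero_mem' := fun t => ⟨fun _ => Submodule.zero_mem _, fun _ => rfl⟩
      neg_mem' := fun hx t => ⟨fun h => Submodule.neg_mem _ ((hx t).1 h),
        fun h => by simp [(hx t).2 h]⟩ }
  smul_mem := fun hr hx t => ⟨fun h => W.mul_mem hr ((hx t).1 h), fun h => by simp [(hx t).2 h]⟩

omit [Fintype I] [DecidableEq I] [Fintype T] [DecidableEq T] in
theorem Fam.mem_free {gd : T → I} {act : T → Prop} {a : I} {x : T → R} :
    x ∈ (Fam.free W gd act).S a ↔ ∀ t, (act t → x t ∈ W.F a (gd t)) ∧ (¬ act t → x t = 0) :=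
  Iff.rfl

theorem Fam.single_mem (G : Fam W M) {a : I} {x : M} (hx : x ∈ G.S a) :
    (Pi.single a x : I → M) ∈ G.mod := by
  intro b
  by_cases h : b = a
  · subst h; simpa using hx
  · simp [Pi.single_eq_of_ne h]

variable (W) (gd : T → I) (act : T → Prop)

/-- columns -/
def col : (Fam.free W gd act).mod →ₗ[W.A] (T → W.A) where
  toFun v t := ⟨fun a b => if b = gd t then v.1 a t else 0, by
    intro a b
    dsimp only
    split_ifs with h
    · subst h
      by_cases ht : act t
      · exact (v.2 a t).1 ht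
      · rw [(v.2 a t).2 ht]; exact Submodule.zero_mem _
    · exact Submodule.zero_mem _⟩
  map_add' v w := by
    ext t a b
    change (if b = gd t then v.1 a t + w.1 a t else 0) =
      (if b = gd t then v.1 a t else 0) + (if b = gd t then w.1 a t else 0)
    split_ifs <;> simp
  map_smul' m v := by
    ext t a b
    change (if b = gd t then (∑ c, m.1 a c • v.1 c) t else 0) =
      ∑ c, m.1 a c * (if b = gd t then v.1 c t else 0)
    split_ifs <;> simp

open Classical in
/-- generators -/
noncomputable def gen (t : T) : (Fam.free W gd act).mod :=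
  ⟨Pi.single (gd t) (if act t then Pi.single t 1 else 0), by
    refine Fam.single_mem _ ?_
    split_ifs with h
    · intro s
      by_cases hs : s = t
      · subst hs
        exact ⟨fun _ => by simpa using W.one_mem _, fun h' => absurd h h'⟩
      · simp [Pi.single_eq_of_ne hs]
    · exact AddSubgroup.zero_mem _⟩

theorem sum_col_gen (v : (Fam.free W gd act).mod) :
    ∑ t, col W gd act v t • gen W gd act t = v := by
  classical
  ext a s
  rw [Submodule.coe_sum, Finset.sum_apply, Finset.sum_apply, Finset.sum_eq_single s]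
  · change (∑ b, (if b = gd s then v.1 a s else 0) •
      (Pi.single (gd s) (if act s then Pi.single s 1 else 0) : I → T → R) b) s = _
    rw [Finset.sum_eq_single (gd s)]
    · by_cases h : act s
      · simp [h]
      · simp [h, (v.2 a s).2 h]
    · intro b _ hb; simp [hb]
    · simp
  · intro t _ ht
    change (∑ b, (if b = gd t then v.1 a t else 0) •
      (Pi.single (gd t) (if act t then Pi.single t 1 else 0) : I → T → R) b) s = _
    rw [Finset.sum_eq_single (gd t)]
    · by_cases h : act t
      · simp [h, Pi.single_eq_of_ne ht.symm]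
      · simp [h]
    · intro b _ hb; simp [hb]
    · simp
  · simp

/-- recombination -/
noncomputable def comb : (T → W.A) →ₗ[W.A] (Fam.free W gd act).mod :=
  Fintype.linearCombination W.A (gen W gd act)

theorem comb_col : (comb W gd act).comp (col W gd act) = LinearMap.id := by
  refine LinearMap.ext fun v => ?_
  simp only [comb, LinearMap.comp_apply, Fintype.linearCombination_apply, LinearMap.id_apply]
  exact sum_col_gen W gd act v

theorem free_projective : Projective (Fam.free W gd act).obj := by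
  have : Module.Projective W.A (Fam.free W gd act).mod :=
    Module.Projective.of_split _ _ (comb_col W gd act)
  infer_instance

theorem free_finite : Module.Finite W.A (Fam.free W gd act).mod :=
  Module.Finite.of_surjective (comb W gd act) fun v =>
    ⟨col W gd act v, LinearMap.congr_fun (comb_col W gd act) v⟩

variable {W gd act}

theorem exists_retr {A P Q : Type*} [Ring A] [AddCommGroup P] [Module A P] [AddCommGroup Q]
    [Module A Q] [Module.Projective A Q] (f : P →ₗ[A] Q) (hf : Function.Surjective f) :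
    ∃ s : P →ₗ[A] P, (∀ v, f (s v) = 0) ∧ ∀ v, f v = 0 → s v = v := by
  obtain ⟨σ, hσ⟩ := Module.projective_lifting_property f LinearMap.id hf
  refine ⟨LinearMap.id - σ.comp f, fun v => ?_, fun v hv => by simp [hv]⟩
  have := LinearMap.congr_fun hσ (f v)
  simp only [LinearMap.comp_apply, LinearMap.id_apply] at this
  simp [this]

theorem le_of_projective (G₁ : Fam W (T → R)) (G₃ : Fam W M') {g : (T → R) → M'}
    (h : Compat (Fam.free W gd act) G₃ g)
    (ex : ∀ a x, x ∈ G₁.S a ↔ x ∈ (Fam.free W gd act).S a ∧ g x = 0)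
    (surj : ∀ a, ∀ z ∈ G₃.S a, ∃ y ∈ (Fam.free W gd act).S a, g y = z)
    (hp : Projective G₃.obj) (K : Fam W (T → R))
    (hK : ∀ t, act t → G₁.S (gd t) ≤ K.S (gd t)) (a : I) : G₁.S a ≤ K.S a := by
  classical
  have : Module.Projective W.A G₃.mod := (IsProjective.iff_projective (R := W.A) G₃.mod).2 hp
  obtain ⟨s, hs1, hs2⟩ := exists_retr (A := W.A) (P := (Fam.free W gd act).mod) (Q := G₃.mod)
    h.map (h.map_surj surj)
  have hs : ∀ v, (s v).1 ∈ G₁.mod := by
    intro v b
    exact (ex b _).2 ⟨(s v).2 b, congrFun (congrArg Subtype.val (hs1 v)) b⟩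
  have hg : ∀ t, (s (gen W gd act t)).1 ∈ K.mod := by
    intro t
    by_cases ht : act t
    · let e : W.A := ⟨Matrix.single (gd t) (gd t) 1, by
        intro a b
        by_cases hab : gd t = a ∧ gd t = b
        · obtain ⟨rfl, rfl⟩ := hab
          simpa using W.one_mem _
        · rw [Matrix.single_apply_of_ne (h := hab)]; exact Submodule.zero_mem _⟩
      have he : ∀ v : I → T → R, e • v = Pi.single (gd t) (v (gd t)) := by
        intro v
        change Matrix.single (gd t) (gd t) (1 : R) • v = _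
        simp
      have h1 : e • gen W gd act t = gen W gd act t := by
        apply Subtype.ext
        rw [Submodule.coe_smul, he]
        simp [gen]
      rw [← h1, map_smul, Submodule.coe_smul, he]
      exact K.single_mem (hK t ht (hs _ _))
    · have h1 : gen W gd act t = 0 := by
        apply Subtype.ext
        simp [gen, ht]
      rw [h1, map_zero]
      exact K.mod.zero_mem
  intro x hx
  let v : (Fam.free W gd act).mod := ⟨Pi.single a x, Fam.single_mem _ ((ex a x).1 hx).1⟩
  have h2 : h.map v = 0 := by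
    ext b
    change g ((Pi.single a x : I → T → R) b) = 0
    by_cases hb : b = a
    · subst hb; simpa using ((ex b x).1 hx).2
    · simpa [Pi.single_eq_of_ne hb] using h.zero a
  have h3 : s v = v := hs2 v h2
  have h4 : (s v).1 ∈ K.mod := by
    rw [← sum_col_gen W gd act v, map_sum, Submodule.coe_sum]
    refine Submodule.sum_mem _ fun t _ => ?_
    rw [map_smul, Submodule.coe_smul]
    exact Submodule.smul_mem _ _ (hg t)
  rw [h3] at h4
  simpa [v] using h4 a

end Free

end Vale.Agent.P176
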